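import Mathlib

/-!
Definitions for problem P064 (second Kahn–Kalai conjecture): subgraph counts, expected
subgraph counts in `G(n,p)`, and the thresholds `p_E` and `p̃_E` (with the conventions of the
problem file).  All graphs live on the vertex set `Fin n`; a graph with fewer than `n`
vertices is regarded as a graph on `Fin n` with extra isolated vertices, which does not affect
any of the counts below.
-/

namespace Vale.Agent.H17.KK

variable {n : ℕ}

/-- `subCount G F = N(G, F)`: the number of subgraphs of `G` isomorphic to `F`, for graphs `G`,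
`F` on the vertex set `Fin n`.  It is the number of graphs `G' ≤ G` (i.e. edge subsets of `G`)
that are the image of `F` under some permutation of the vertex set. -/
noncomputable def subCount (G F : SimpleGraph (Fin n)) : ℕ :=
  Set.ncard {G' : SimpleGraph (Fin n) |
    G' ≤ G ∧ ∃ σ : Equiv.Perm (Fin n), G' = F.map σ.toEmbedding}

/-- `expCount p F = N(K_n, F) * p ^ e(F)`: the expected number `E N(G(n,p), F)` of subgraphs of
the binomial random graph `G(n,p)` isomorphic to `F` (each of the `N(K_n, F)` copies of `F` in
the complete graph is present with probability `p ^ e(F)`). -/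
noncomputable def expCount (p : ℝ) (F : SimpleGraph (Fin n)) : ℝ :=
  (subCount (⊤ : SimpleGraph (Fin n)) F : ℝ) * p ^ F.edgeSet.ncard

/-- The threshold `p_E(n, H)` of the problem file: the least `p ∈ [0,1]` such that
`E N(G(n,p), F) ≥ 1/2` for every subgraph `F ⊆ H`. -/
noncomputable def pE (H : SimpleGraph (Fin n)) : ℝ :=
  sInf {p : ℝ | 0 ≤ p ∧ p ≤ 1 ∧ ∀ F : SimpleGraph (Fin n), F ≤ H → 1 / 2 ≤ expCount p F}

/-- The threshold `p̃_E(n, H)` of the problem file: the least `p ∈ [0,1]` such that
`E N(G(n,p), F) ≥ N(H, F)/2` for every subgraph `F ⊆ H`. -/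
noncomputable def pTildeE (H : SimpleGraph (Fin n)) : ℝ :=
  sInf {p : ℝ | 0 ≤ p ∧ p ≤ 1 ∧
    ∀ F : SimpleGraph (Fin n), F ≤ H → (subCount H F : ℝ) / 2 ≤ expCount p F}

end Vale.Agent.H17.KK
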