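import Mathlib
import Vale.Agent.H17.KK.Defs

/-!
Basic facts on images of graphs under vertex permutations and fibre counting.
-/

namespace Vale.Agent.H17.KK

open Classical

variable {n : ℕ}

/-- Image of a graph under a vertex permutation. -/
noncomputable abbrev pm (σ : Equiv.Perm (Fin n)) (F : SimpleGraph (Fin n)) : SimpleGraph (Fin n) :=
  F.map σ.toEmbedding

lemma pm_adj (σ : Equiv.Perm (Fin n)) (F : SimpleGraph (Fin n)) (a b : Fin n) :
    (pm σ F).Adj a b ↔ F.Adj (σ.symm a) (σ.symm b) := by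
  unfold pm
  rw [SimpleGraph.map_adj]
  constructor
  · rintro ⟨u, v, h, rfl, rfl⟩
    show F.Adj (σ.symm (σ u)) (σ.symm (σ v))
    rw [Equiv.symm_apply_apply, Equiv.symm_apply_apply]
    exact h
  · intro h
    exact ⟨σ.symm a, σ.symm b, h, Equiv.apply_symm_apply σ a, Equiv.apply_symm_apply σ b⟩

lemma pm_adj_apply (σ : Equiv.Perm (Fin n)) (F : SimpleGraph (Fin n)) (a b : Fin n) :
    (pm σ F).Adj (σ a) (σ b) ↔ F.Adj a b := by
  rw [pm_adj]; simp

lemma pm_one (F : SimpleGraph (Fin n)) : pm 1 F = F := by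
  ext a b
  exact pm_adj 1 F a b

lemma pm_mul (σ τ : Equiv.Perm (Fin n)) (F : SimpleGraph (Fin n)) :
    pm (σ * τ) F = pm σ (pm τ F) := by
  ext a b
  rw [pm_adj, pm_adj, pm_adj]
  simp [Equiv.Perm.mul_def]

lemma pm_injective (σ : Equiv.Perm (Fin n)) : Function.Injective (pm σ) :=
  SimpleGraph.map_injective _

lemma pm_mono (σ : Equiv.Perm (Fin n)) {F F' : SimpleGraph (Fin n)} (h : F ≤ F') :
    pm σ F ≤ pm σ F' :=
  SimpleGraph.map_monotone _ h

lemma pm_inv_cancel (σ : Equiv.Perm (Fin n)) (F : SimpleGraph (Fin n)) :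
    pm σ⁻¹ (pm σ F) = F := by
  rw [← pm_mul]; simp [pm_one]

lemma pm_cancel_inv (σ : Equiv.Perm (Fin n)) (F : SimpleGraph (Fin n)) :
    pm σ (pm σ⁻¹ F) = F := by
  rw [← pm_mul]; simp [pm_one]

lemma pm_sup (σ : Equiv.Perm (Fin n)) (F F' : SimpleGraph (Fin n)) :
    pm σ (F ⊔ F') = pm σ F ⊔ pm σ F' := by
  ext a b
  simp only [pm_adj, SimpleGraph.sup_adj]

lemma pm_bot (σ : Equiv.Perm (Fin n)) : pm σ (⊥ : SimpleGraph (Fin n)) = ⊥ := by
  ext a b
  rw [pm_adj]
  simp

lemma pm_support (σ : Equiv.Perm (Fin n)) (F : SimpleGraph (Fin n)) :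
    (pm σ F).support = σ '' F.support := by
  ext a
  simp only [SimpleGraph.mem_support, Set.mem_image]
  constructor
  · rintro ⟨b, hb⟩
    rw [pm_adj] at hb
    exact ⟨σ.symm a, ⟨σ.symm b, hb⟩, by simp⟩
  · rintro ⟨x, ⟨y, hxy⟩, rfl⟩
    exact ⟨σ y, (pm_adj_apply σ F x y).2 hxy⟩

lemma pm_edge_ncard (σ : Equiv.Perm (Fin n)) (F : SimpleGraph (Fin n)) :
    (pm σ F).edgeSet.ncard = F.edgeSet.ncard := by
  unfold pm
  rw [SimpleGraph.edgeSet_map]
  exact Set.ncard_image_of_injective _ (Function.Embedding.sym2Map σ.toEmbedding).injective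

/-- If two permutations agree on the support of `F` they map `F` to the same graph. -/
lemma pm_congr_of_support {σ τ : Equiv.Perm (Fin n)} {F : SimpleGraph (Fin n)}
    (h : ∀ a ∈ F.support, σ a = τ a) : pm σ F = pm τ F := by
  have key : ∀ (σ τ : Equiv.Perm (Fin n)), (∀ a ∈ F.support, σ a = τ a) → pm σ F ≤ pm τ F := by
    intro σ τ h a b hab
    rw [pm_adj] at hab
    have ha : σ.symm a ∈ F.support := ⟨_, hab⟩
    have hb : σ.symm b ∈ F.support := ⟨_, hab.symm⟩
    have h1 : τ (σ.symm a) = a := by rw [← h _ ha]; simp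
    have h2 : τ (σ.symm b) = b := by rw [← h _ hb]; simp
    have := (pm_adj_apply τ F _ _).2 hab
    rwa [h1, h2] at this
  exact le_antisymm (key σ τ h) (key τ σ fun a ha => (h a ha).symm)

/-- A permutation fixing the support of `F` pointwise fixes `F`. -/
lemma pm_eq_self_of_fix {ρ : Equiv.Perm (Fin n)} {F : SimpleGraph (Fin n)}
    (h : ∀ a ∈ F.support, ρ a = a) : pm ρ F = F := by
  have := pm_congr_of_support (σ := ρ) (τ := 1) (F := F) (by simpa using h)
  rwa [pm_one] at this

/-- The number of permutations mapping `F` into `G`. -/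
noncomputable def permCount (G F : SimpleGraph (Fin n)) : ℕ :=
  Nat.card {σ : Equiv.Perm (Fin n) // pm σ F ≤ G}

/-- The number of permutations fixing `F`. -/
noncomputable def stabCount (F : SimpleGraph (Fin n)) : ℕ :=
  Nat.card {σ : Equiv.Perm (Fin n) // pm σ F = F}

lemma stabCount_pos (F : SimpleGraph (Fin n)) : 0 < stabCount F := by
  unfold stabCount
  rw [Nat.card_pos_iff]
  exact ⟨⟨⟨1, pm_one F⟩⟩, inferInstance⟩

/-- Fibre counting: `#{σ : σ(F) ≤ G} = N(G, F) * |Stab F|`. -/
lemma permCount_eq (G F : SimpleGraph (Fin n)) :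
    permCount G F = subCount G F * stabCount F := by
  unfold permCount subCount stabCount
  set C : Set (SimpleGraph (Fin n)) :=
    {G' | G' ≤ G ∧ ∃ σ : Equiv.Perm (Fin n), G' = F.map σ.toEmbedding} with hC
  have hfin : C.Finite := Set.toFinite C
  -- sigma decomposition along the map `σ ↦ σ(F)`
  let f : {σ : Equiv.Perm (Fin n) // pm σ F ≤ G} → C := fun σ => ⟨pm σ.1 F, σ.2, σ.1, rfl⟩
  rw [← Nat.card_congr (Equiv.sigmaFiberEquiv f)]
  have : Fintype C := hfin.fintype
  rw [Nat.card_sigma]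
  have hfib : ∀ G' : C, Nat.card {σ : {σ : Equiv.Perm (Fin n) // pm σ F ≤ G} // f σ = G'} =
      Nat.card {σ : Equiv.Perm (Fin n) // pm σ F = F} := by
    rintro ⟨G', hG', τ, rfl⟩
    refine Nat.card_congr
      { toFun := fun σ => ⟨τ⁻¹ * σ.1.1, by
          have h := congrArg Subtype.val σ.2
          have h' : pm σ.1.1 F = pm τ F := h
          rw [pm_mul, h']; exact pm_inv_cancel τ F⟩
        invFun := fun σ => ⟨⟨τ * σ.1, by
          rw [pm_mul, σ.2]; exact hG'⟩, by
          apply Subtype.ext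
          show pm (τ * σ.1) F = pm τ F
          rw [pm_mul, σ.2]⟩
        left_inv := fun σ => by
          apply Subtype.ext
          apply Subtype.ext
          simp
        right_inv := fun σ => by
          apply Subtype.ext
          simp }
  rw [Finset.sum_congr rfl (fun G' _ => hfib G'), Finset.sum_const, smul_eq_mul,
    Finset.card_univ, Set.ncard_eq_toFinset_card' C, Set.toFinset_card]

lemma permCount_top (F : SimpleGraph (Fin n)) :
    permCount (⊤ : SimpleGraph (Fin n)) F = n.factorial := by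
  unfold permCount
  have e : {σ : Equiv.Perm (Fin n) // pm σ F ≤ (⊤ : SimpleGraph (Fin n))} ≃ Equiv.Perm (Fin n) :=
    { toFun := fun σ => σ.1
      invFun := fun σ => ⟨σ, le_top⟩
      left_inv := fun σ => rfl
      right_inv := fun σ => rfl }
  rw [Nat.card_congr e, Nat.card_perm, Nat.card_eq_fintype_card, Fintype.card_fin]

lemma subCount_top_mul_stab (F : SimpleGraph (Fin n)) :
    subCount (⊤ : SimpleGraph (Fin n)) F * stabCount F = n.factorial := by
  rw [← permCount_eq, permCount_top]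

lemma subCount_top_pos (F : SimpleGraph (Fin n)) : 0 < subCount (⊤ : SimpleGraph (Fin n)) F := by
  have h := subCount_top_mul_stab F
  have : 0 < n.factorial := Nat.factorial_pos n
  rw [← h] at this
  exact Nat.pos_of_mul_pos_right this

/-- Transfer from permutation counts to subgraph counts. -/
lemma subCount_le_of_permCount_le (H F : SimpleGraph (Fin n)) (x : ℝ)
    (h : (permCount H F : ℝ) ≤ (n.factorial : ℝ) * x) :
    (subCount H F : ℝ) ≤ (subCount (⊤ : SimpleGraph (Fin n)) F : ℝ) * x := by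
  have h1 : (permCount H F : ℝ) = (subCount H F : ℝ) * (stabCount F : ℝ) := by
    rw [permCount_eq]; push_cast; ring
  have h2 : (n.factorial : ℝ) =
      (subCount (⊤ : SimpleGraph (Fin n)) F : ℝ) * (stabCount F : ℝ) := by
    rw [← subCount_top_mul_stab F]; push_cast; ring
  have hpos : (0 : ℝ) < (stabCount F : ℝ) := by exact_mod_cast stabCount_pos F
  rw [h1, h2] at h
  have h3 : (subCount H F : ℝ) * (stabCount F : ℝ) ≤
      ((subCount (⊤ : SimpleGraph (Fin n)) F : ℝ) * x) * (stabCount F : ℝ) := by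
    calc (subCount H F : ℝ) * (stabCount F : ℝ)
        ≤ (subCount (⊤ : SimpleGraph (Fin n)) F : ℝ) * (stabCount F : ℝ) * x := h
      _ = ((subCount (⊤ : SimpleGraph (Fin n)) F : ℝ) * x) * (stabCount F : ℝ) := by ring
  exact le_of_mul_le_mul_right h3 hpos

lemma permCount_le_of_subCount_le (H F : SimpleGraph (Fin n)) (x : ℝ)
    (h : (subCount H F : ℝ) ≤ (subCount (⊤ : SimpleGraph (Fin n)) F : ℝ) * x) :
    (permCount H F : ℝ) ≤ (n.factorial : ℝ) * x := by
  have h1 : (permCount H F : ℝ) = (subCount H F : ℝ) * (stabCount F : ℝ) := by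
    rw [permCount_eq]; push_cast; ring
  have h2 : (n.factorial : ℝ) =
      (subCount (⊤ : SimpleGraph (Fin n)) F : ℝ) * (stabCount F : ℝ) := by
    rw [← subCount_top_mul_stab F]; push_cast; ring
  have hpos : (0 : ℝ) ≤ (stabCount F : ℝ) := by positivity
  rw [h1, h2]
  calc (subCount H F : ℝ) * (stabCount F : ℝ)
      ≤ ((subCount (⊤ : SimpleGraph (Fin n)) F : ℝ) * x) * (stabCount F : ℝ) :=
        mul_le_mul_of_nonneg_right h hpos
    _ = (subCount (⊤ : SimpleGraph (Fin n)) F : ℝ) * (stabCount F : ℝ) * x := by ring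

end Vale.Agent.H17.KK
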