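import Mathlib
import Vale.Agent.H17.KK.Basic

/-!
Greedy selection of a conflict-free subfamily, and counting the copies of a union of copies.
-/

namespace Vale.Agent.H17.KK

open Classical

variable {n : ℕ}

/-- Greedy lemma: if every element of `C` is in relation `R` with at most `K` elements of `C`
(`R` reflexive on `C` and symmetric), then `C` has a subfamily `D` of pairwise unrelated elements
with `|C| ≤ K |D|`. -/
lemma exists_sparse_subfamily {α : Type} (C : Finset α) (R : α → α → Prop) [DecidableRel R]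
    (hrefl : ∀ a ∈ C, R a a) (hsymm : ∀ a b, R a b → R b a) (K : ℕ)
    (hK : ∀ a ∈ C, (C.filter (fun b => R a b)).card ≤ K) :
    ∃ D : Finset α, D ⊆ C ∧ (∀ a ∈ D, ∀ b ∈ D, a ≠ b → ¬ R a b) ∧ C.card ≤ K * D.card := by
  let P : Finset α → Prop := fun D => D ⊆ C ∧ ∀ a ∈ D, ∀ b ∈ D, a ≠ b → ¬ R a b
  have hne : (C.powerset.filter P).Nonempty :=
    ⟨∅, by simp [P]⟩
  obtain ⟨D, hDmem, hDmax⟩ := Finset.exists_max_image (C.powerset.filter P) Finset.card hne
  have hDP : P D := (Finset.mem_filter.1 hDmem).2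
  refine ⟨D, hDP.1, hDP.2, ?_⟩
  have hcover : ∀ c ∈ C, ∃ d ∈ D, R d c := by
    intro c hc
    by_contra hcon
    push Not at hcon
    have hcD : c ∉ D := fun h => hcon c h (hrefl c hc)
    have hP' : P (insert c D) := by
      refine ⟨Finset.insert_subset hc hDP.1, ?_⟩
      intro a ha b hb hab
      rcases Finset.mem_insert.1 ha with rfl | ha'
      · rcases Finset.mem_insert.1 hb with rfl | hb'
        · exact absurd rfl hab
        · exact fun h => hcon b hb' (hsymm _ _ h)
      · rcases Finset.mem_insert.1 hb with rfl | hb'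
        · exact hcon a ha'
        · exact hDP.2 a ha' b hb' hab
    have hmem' : insert c D ∈ C.powerset.filter P :=
      Finset.mem_filter.2 ⟨Finset.mem_powerset.2 hP'.1, hP'⟩
    have := hDmax _ hmem'
    rw [Finset.card_insert_of_notMem hcD] at this
    omega
  have hsub : C ⊆ D.biUnion (fun d => C.filter (fun b => R d b)) := by
    intro c hc
    obtain ⟨d, hd, hR⟩ := hcover c hc
    exact Finset.mem_biUnion.2 ⟨d, hd, Finset.mem_filter.2 ⟨hc, hR⟩⟩
  calc C.card ≤ (D.biUnion (fun d => C.filter (fun b => R d b))).card := Finset.card_le_card hsub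
    _ ≤ ∑ d ∈ D, (C.filter (fun b => R d b)).card := Finset.card_biUnion_le
    _ ≤ ∑ _d ∈ D, K := Finset.sum_le_sum fun d hd => hK d (hDP.1 hd)
    _ = K * D.card := by rw [Finset.sum_const, smul_eq_mul, mul_comm]

/-- The graph `sSup D` mapped by a permutation, in terms of adjacency. -/
lemma pm_sSup_adj (σ : Equiv.Perm (Fin n)) (D : Set (SimpleGraph (Fin n))) (a b : Fin n) :
    (pm σ (sSup D)).Adj a b ↔ ∃ G ∈ D, (pm σ G).Adj a b := by
  rw [pm_adj, SimpleGraph.sSup_adj]
  constructor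
  · rintro ⟨G, hG, h⟩
    exact ⟨G, hG, (pm_adj σ G a b).2 h⟩
  · rintro ⟨G, hG, h⟩
    exact ⟨G, hG, (pm_adj σ G a b).1 h⟩

/-- **Tuple counting.** If `D` is a family of `t` distinct copies of `F`, then
`t! * N(K_n, ⋃ D) ≤ N(K_n, F) ^ t`. -/
lemma factorial_mul_subCount_top_le (F : SimpleGraph (Fin n)) (D : Finset (SimpleGraph (Fin n)))
    (hD : ∀ G ∈ D, ∃ τ : Equiv.Perm (Fin n), G = pm τ F) :
    D.card.factorial * subCount (⊤ : SimpleGraph (Fin n)) (sSup (D : Set (SimpleGraph (Fin n)))) ≤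
      subCount (⊤ : SimpleGraph (Fin n)) F ^ D.card := by
  set U : SimpleGraph (Fin n) := sSup (D : Set (SimpleGraph (Fin n))) with hU
  let A := ↥{G' : SimpleGraph (Fin n) | G' ≤ (⊤ : SimpleGraph (Fin n)) ∧
    ∃ σ : Equiv.Perm (Fin n), G' = U.map σ.toEmbedding}
  let B := ↥{G' : SimpleGraph (Fin n) | G' ≤ (⊤ : SimpleGraph (Fin n)) ∧
    ∃ σ : Equiv.Perm (Fin n), G' = F.map σ.toEmbedding}
  have hA : subCount (⊤ : SimpleGraph (Fin n)) U = Nat.card A := by
    unfold subCount
    rw [Nat.card_coe_set_eq]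
  have hB : subCount (⊤ : SimpleGraph (Fin n)) F = Nat.card B := by
    unfold subCount
    rw [Nat.card_coe_set_eq]
  -- the chosen permutation for each copy of `U`
  let ch : A → Equiv.Perm (Fin n) := fun U' => Classical.choose U'.2.2
  have hch : ∀ U' : A, U'.1 = pm (ch U') U := fun U' => Classical.choose_spec U'.2.2
  let Φ : A × Equiv.Perm ↥D → (↥D → B) := fun x d =>
    ⟨pm (ch x.1) (x.2 d).1, le_top, by
      obtain ⟨τ, hτ⟩ := hD (x.2 d).1 (x.2 d).2
      exact ⟨ch x.1 * τ, by rw [hτ, ← pm_mul]⟩⟩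
  have hΦ : Function.Injective Φ := by
    rintro ⟨U1, π1⟩ ⟨U2, π2⟩ h
    have hval : ∀ d : ↥D, pm (ch U1) (π1 d).1 = pm (ch U2) (π2 d).1 := fun d =>
      congrArg Subtype.val (congrFun h d)
    have hU12 : U1 = U2 := by
      apply Subtype.ext
      rw [hch U1, hch U2]
      ext a b
      rw [pm_sSup_adj, pm_sSup_adj]
      constructor
      · rintro ⟨G, hG, hab⟩
        have hG' : G ∈ D := hG
        have h1 := hval (π1.symm ⟨G, hG'⟩)
        rw [Equiv.apply_symm_apply] at h1
        refine ⟨(π2 (π1.symm ⟨G, hG'⟩)).1, (π2 (π1.symm ⟨G, hG'⟩)).2, ?_⟩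
        rw [← h1]
        exact hab
      · rintro ⟨G, hG, hab⟩
        have hG' : G ∈ D := hG
        have h1 := hval (π2.symm ⟨G, hG'⟩)
        rw [Equiv.apply_symm_apply] at h1
        refine ⟨(π1 (π2.symm ⟨G, hG'⟩)).1, (π1 (π2.symm ⟨G, hG'⟩)).2, ?_⟩
        rw [h1]
        exact hab
    subst hU12
    have hπ : π1 = π2 := by
      ext d : 1
      apply Subtype.ext
      exact pm_injective (ch U1) (hval d)
    rw [hπ]
  have hcard := Nat.card_le_card_of_injective Φ hΦ
  rw [Nat.card_prod, Nat.card_perm, Nat.card_fun] at hcard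
  have hDc : Nat.card ↥D = D.card := by
    rw [Nat.card_eq_fintype_card, Fintype.card_coe]
  rw [hDc] at hcard
  rw [hA, hB, mul_comm]
  exact hcard

/-- Edge count of the union of a family of copies of `F` with pairwise disjoint supports. -/
lemma edge_ncard_sSup (F : SimpleGraph (Fin n)) (D : Finset (SimpleGraph (Fin n)))
    (hD : ∀ G ∈ D, ∃ τ : Equiv.Perm (Fin n), G = pm τ F)
    (hdisj : ∀ a ∈ D, ∀ b ∈ D, a ≠ b → ¬ ∃ u, u ∈ a.support ∧ u ∈ b.support) :
    (sSup (D : Set (SimpleGraph (Fin n)))).edgeSet.ncard = D.card * F.edgeSet.ncard := by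
  have h1 : (sSup (D : Set (SimpleGraph (Fin n)))).edgeSet.toFinset =
      D.biUnion (fun G => G.edgeSet.toFinset) := by
    ext e
    simp only [Set.mem_toFinset, Finset.mem_biUnion]
    rw [SimpleGraph.edgeSet_sSup]
    simp
  rw [Set.ncard_eq_toFinset_card', h1, Finset.card_biUnion]
  · rw [Finset.sum_congr rfl (g := fun _ => F.edgeSet.ncard), Finset.sum_const, smul_eq_mul]
    intro G hG
    obtain ⟨τ, rfl⟩ := hD G hG
    rw [← Set.ncard_eq_toFinset_card', pm_edge_ncard]
  · intro a ha b hb hab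
    rw [Function.onFun, Finset.disjoint_left]
    intro e hea heb
    rw [Set.mem_toFinset] at hea heb
    induction e using Sym2.ind with
    | _ x y =>
      exact hdisj a ha b hb hab ⟨x, ⟨y, hea⟩, ⟨y, heb⟩⟩

end Vale.Agent.H17.KK
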