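import Mathlib

/-!
Rooted homomorphism counts: a connected graph on `m + 1` vertices has at most `Δ ^ m`
homomorphisms into a graph of maximum degree at most `Δ` sending a given vertex to a given vertex.
-/

namespace Vale.Agent.H17.KK

open Classical

lemma card_subtype_prod_le {A B : Type} [Finite A] [Finite B] (R : A → B → Prop) (K : ℕ)
    (hK : ∀ a, Nat.card {b : B // R a b} ≤ K) :
    Nat.card {p : A × B // R p.1 p.2} ≤ Nat.card A * K := by
  have : Fintype A := Fintype.ofFinite A
  rw [Nat.card_congr (Equiv.subtypeProdEquivSigmaSubtype R), Nat.card_sigma]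
  calc ∑ a : A, Nat.card {b : B // R a b} ≤ ∑ _a : A, K := Finset.sum_le_sum fun a _ => hK a
    _ = Nat.card A * K := by
      rw [Finset.sum_const, smul_eq_mul, Finset.card_univ, Nat.card_eq_fintype_card]

theorem rooted_hom_card {V : Type} [Finite V] (H : SimpleGraph V) (Δ : ℕ)
    (hdeg : ∀ v, (H.neighborSet v).ncard ≤ Δ) :
    ∀ (m : ℕ) (W : Type) [Finite W] (G₀ : SimpleGraph W), Nat.card W = m + 1 → G₀.Connected →
      ∀ (w : W) (u : V),
        Nat.card {f : W → V // (∀ a b, G₀.Adj a b → H.Adj (f a) (f b)) ∧ f w = u} ≤ Δ ^ m := by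
  intro m
  induction m with
  | zero =>
    intro W _ G₀ hW hconn w u
    have hsub : Subsingleton W := by
      rw [← Finite.card_le_one_iff_subsingleton]
      omega
    have hs : Subsingleton {f : W → V // (∀ a b, G₀.Adj a b → H.Adj (f a) (f b)) ∧ f w = u} := by
      constructor
      rintro ⟨f, hf, hfw⟩ ⟨g, hg, hgw⟩
      apply Subtype.ext
      funext a
      show f a = g a
      rw [Subsingleton.elim a w, hfw, hgw]
    simpa using Finite.card_le_one_iff_subsingleton.2 hs
  | succ m ih =>
    intro W _ G₀ hW hconn w u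
    have hnt : Nontrivial W := by
      rw [← Finite.one_lt_card_iff_nontrivial]; omega
    obtain ⟨x, hx⟩ := hconn.exists_connected_induce_compl_singleton_of_finite_nontrivial
    have hW' : Nat.card ↥({x}ᶜ : Set W) = m + 1 := by
      rw [Nat.card_coe_set_eq, Set.ncard_compl, Set.ncard_singleton, hW]
      rfl
    obtain ⟨x', hxx'⟩ := hconn.preconnected.exists_adj_of_nontrivial x
    have hx'ne : x' ≠ x := (G₀.ne_of_adj hxx').symm
    set x'' : ↥({x}ᶜ : Set W) := ⟨x', hx'ne⟩ with hx''
    by_cases hxw : x = w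
    · subst hxw
      -- the root is removed; the new root is the neighbour `x'`
      let T := {p : ↥(H.neighborSet u) × (↥({x}ᶜ : Set W) → V) //
        (∀ a b, (G₀.induce ({x}ᶜ : Set W)).Adj a b → H.Adj (p.2 a) (p.2 b)) ∧ p.2 x'' = p.1.1}
      let Φ : {f : W → V // (∀ a b, G₀.Adj a b → H.Adj (f a) (f b)) ∧ f x = u} → T :=
        fun f => ⟨(⟨f.1 x', by
          have h := f.2.1 x x' hxx'
          rw [f.2.2] at h
          exact h⟩, fun a => f.1 a.1), ⟨fun a b hab => f.2.1 a.1 b.1 hab, rfl⟩⟩
      have hΦ : Function.Injective Φ := by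
        rintro ⟨f, hf, hfx⟩ ⟨g, hg, hgx⟩ h
        apply Subtype.ext
        funext a
        show f a = g a
        by_cases ha : a = x
        · rw [ha, hfx, hgx]
        · have h2 := congrArg (fun t : T => t.1.2 ⟨a, ha⟩) h
          exact h2
      have hT : Nat.card T ≤ Nat.card ↥(H.neighborSet u) * Δ ^ m := by
        apply card_subtype_prod_le
          (R := fun (u' : ↥(H.neighborSet u)) (g : ↥({x}ᶜ : Set W) → V) =>
            (∀ a b, (G₀.induce ({x}ᶜ : Set W)).Adj a b → H.Adj (g a) (g b)) ∧ g x'' = u'.1)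
        intro u'
        exact ih ↥({x}ᶜ : Set W) (G₀.induce ({x}ᶜ : Set W)) hW' hx x'' u'.1
      calc Nat.card {f : W → V // (∀ a b, G₀.Adj a b → H.Adj (f a) (f b)) ∧ f x = u}
          ≤ Nat.card T := Nat.card_le_card_of_injective Φ hΦ
        _ ≤ Nat.card ↥(H.neighborSet u) * Δ ^ m := hT
        _ ≤ Δ * Δ ^ m := by
          apply Nat.mul_le_mul_right
          rw [Nat.card_coe_set_eq]
          exact hdeg u
        _ = Δ ^ (m + 1) := by ring
    · -- a non-root vertex is removed
      have hwx : w ≠ x := fun h => hxw h.symm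
      set w' : ↥({x}ᶜ : Set W) := ⟨w, hwx⟩ with hw'
      let A := {g : ↥({x}ᶜ : Set W) → V //
        (∀ a b, (G₀.induce ({x}ᶜ : Set W)).Adj a b → H.Adj (g a) (g b)) ∧ g w' = u}
      let T := {p : A × V // H.Adj (p.1.1 x'') p.2}
      let Φ : {f : W → V // (∀ a b, G₀.Adj a b → H.Adj (f a) (f b)) ∧ f w = u} → T :=
        fun f => ⟨(⟨fun a => f.1 a.1, ⟨fun a b hab => f.2.1 a.1 b.1 hab, f.2.2⟩⟩, f.1 x),
          f.2.1 x' x hxx'.symm⟩
      have hΦ : Function.Injective Φ := by
        rintro ⟨f, hf, hfx⟩ ⟨g, hg, hgx⟩ h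
        apply Subtype.ext
        funext a
        show f a = g a
        by_cases ha : a = x
        · have h2 := congrArg (fun t : T => t.1.2) h
          rw [ha]
          exact h2
        · have h2 := congrArg (fun t : T => t.1.1.1 ⟨a, ha⟩) h
          exact h2
      have hA : Nat.card A ≤ Δ ^ m :=
        ih ↥({x}ᶜ : Set W) (G₀.induce ({x}ᶜ : Set W)) hW' hx w' u
      have hT : Nat.card T ≤ Nat.card A * Δ := by
        apply card_subtype_prod_le (R := fun (a : A) (v : V) => H.Adj (a.1 x'') v)
        intro a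
        have : Nat.card {b : V // H.Adj (a.1 x'') b} = (H.neighborSet (a.1 x'')).ncard := by
          rw [← Nat.card_coe_set_eq]
          rfl
        rw [this]
        exact hdeg _
      calc Nat.card {f : W → V // (∀ a b, G₀.Adj a b → H.Adj (f a) (f b)) ∧ f w = u}
          ≤ Nat.card T := Nat.card_le_card_of_injective Φ hΦ
        _ ≤ Nat.card A * Δ := hT
        _ ≤ Δ ^ m * Δ := Nat.mul_le_mul_right _ hA
        _ = Δ ^ (m + 1) := by ring

end Vale.Agent.H17.KK
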