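import Mathlib
import Vale.Agent.H17.KK.Basic
import Vale.Agent.H17.KK.Rooted
import Vale.Agent.H17.KK.Family

/-!
The counting inequality for subgraphs with connected support in a host graph of bounded degree.
-/

namespace Vale.Agent.H17.KK

open Classical

variable {n : ℕ}

/-- `F` has connected support: the graph induced by `F` on its set of non-isolated vertices is
connected (in particular `F` has at least one edge). -/
def ConnSupp (F : SimpleGraph (Fin n)) : Prop := (F.induce F.support).Connected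

/-- The copies of `F` in `H`, as a finset. -/
noncomputable def copies (H F : SimpleGraph (Fin n)) : Finset (SimpleGraph (Fin n)) :=
  Set.toFinset {G' : SimpleGraph (Fin n) |
    G' ≤ H ∧ ∃ σ : Equiv.Perm (Fin n), G' = F.map σ.toEmbedding}

lemma mem_copies {H F G' : SimpleGraph (Fin n)} :
    G' ∈ copies H F ↔ G' ≤ H ∧ ∃ σ : Equiv.Perm (Fin n), G' = pm σ F := by
  unfold copies
  rw [Set.mem_toFinset]
  rfl

lemma subCount_eq_card_copies (H F : SimpleGraph (Fin n)) : subCount H F = (copies H F).card := by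
  unfold subCount copies
  rw [Set.ncard_eq_toFinset_card']

lemma support_ncard_pm (σ : Equiv.Perm (Fin n)) (F : SimpleGraph (Fin n)) :
    (pm σ F).support.ncard = F.support.ncard := by
  rw [pm_support]
  exact Set.ncard_image_of_injective _ σ.injective

/-- Number of copies of `F` in `H` through a given vertex. -/
lemma card_copies_through (H : SimpleGraph (Fin n)) (Δ : ℕ)
    (hdeg : ∀ v, (H.neighborSet v).ncard ≤ Δ) (F : SimpleGraph (Fin n)) (hconn : ConnSupp F)
    (u : Fin n) :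
    ((copies H F).filter (fun G' => u ∈ G'.support)).card ≤
      F.support.ncard * Δ ^ (F.support.ncard - 1) := by
  set W := ↥F.support with hW
  set G₀ := F.induce F.support with hG₀
  have hne : Nonempty W := hconn.nonempty
  have hv1 : 1 ≤ F.support.ncard := by
    rw [← Nat.card_coe_set_eq]
    exact Nat.card_pos
  have hcardW : Nat.card W = (F.support.ncard - 1) + 1 := by
    rw [Nat.card_coe_set_eq]; omega
  let T := {p : W × (W → Fin n) //
    (∀ a b, G₀.Adj a b → H.Adj (p.2 a) (p.2 b)) ∧ p.2 p.1 = u}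
  have hT : Nat.card T ≤ Nat.card W * Δ ^ (F.support.ncard - 1) := by
    apply card_subtype_prod_le
      (R := fun (w : W) (f : W → Fin n) => (∀ a b, G₀.Adj a b → H.Adj (f a) (f b)) ∧ f w = u)
    intro w
    exact rooted_hom_card H Δ hdeg (F.support.ncard - 1) W G₀ hcardW hconn w u
  -- data for each copy through `u`
  have hdata : ∀ G' : ↥((copies H F).filter (fun G' => u ∈ G'.support)),
      ∃ (σ : Equiv.Perm (Fin n)) (w : W), G'.1 = pm σ F ∧ σ w.1 = u := by
    rintro ⟨G', hG'⟩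
    rw [Finset.mem_filter, mem_copies] at hG'
    obtain ⟨⟨-, σ, rfl⟩, hu⟩ := hG'
    rw [pm_support] at hu
    obtain ⟨w, hw, rfl⟩ := hu
    exact ⟨σ, ⟨w, hw⟩, rfl, rfl⟩
  choose sg wt hsg hwt using hdata
  let Φ : ↥((copies H F).filter (fun G' => u ∈ G'.support)) → T := fun G' =>
    ⟨(wt G', fun a => sg G' a.1), ⟨by
      intro a b hab
      have hG' := G'.2
      rw [Finset.mem_filter, mem_copies] at hG'
      have h1 : (pm (sg G') F).Adj (sg G' a.1) (sg G' b.1) := (pm_adj_apply _ F _ _).2 hab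
      rw [← hsg G'] at h1
      exact hG'.1.1 h1, hwt G'⟩⟩
  have hΦ : Function.Injective Φ := by
    intro G1 G2 h
    apply Subtype.ext
    rw [hsg G1, hsg G2]
    apply pm_congr_of_support
    intro a ha
    have h2 := congrArg (fun t : T => t.1.2 ⟨a, ha⟩) h
    exact h2
  have := Nat.card_le_card_of_injective Φ hΦ
  rw [Nat.card_eq_fintype_card, Fintype.card_coe] at this
  calc ((copies H F).filter (fun G' => u ∈ G'.support)).card ≤ Nat.card T := this
    _ ≤ Nat.card W * Δ ^ (F.support.ncard - 1) := hT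
    _ = F.support.ncard * Δ ^ (F.support.ncard - 1) := by rw [Nat.card_coe_set_eq]

/-- A real-number lemma: `t! ≤ 2 μ^t` forces `t ≤ 6 μ`. -/
lemma le_six_mul_of_factorial_le (t : ℕ) (μ : ℝ) (hμ : 0 ≤ μ)
    (h : (t.factorial : ℝ) ≤ 2 * μ ^ t) : (t : ℝ) ≤ 6 * μ := by
  rcases Nat.eq_zero_or_pos t with rfl | ht
  · simpa using mul_nonneg (by norm_num : (0 : ℝ) ≤ 6) hμ
  have h1 : (t : ℝ) ^ t / (t.factorial : ℝ) ≤ Real.exp (t : ℝ) :=
    Real.pow_div_factorial_le_exp (t : ℝ) (Nat.cast_nonneg t) t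
  have hfpos : (0 : ℝ) < (t.factorial : ℝ) := by exact_mod_cast Nat.factorial_pos t
  rw [div_le_iff₀ hfpos] at h1
  have h2 : Real.exp (t : ℝ) ≤ 3 ^ t := by
    have : Real.exp (t : ℝ) = Real.exp 1 ^ t := by
      rw [← Real.exp_nat_mul]; simp
    rw [this]
    exact pow_le_pow_left₀ (Real.exp_pos 1).le Real.exp_one_lt_three.le t
  have h3 : (2 : ℝ) ≤ 2 ^ t := by
    calc (2 : ℝ) = 2 ^ 1 := by norm_num
      _ ≤ 2 ^ t := pow_le_pow_right₀ (by norm_num) ht
  have h4 : (t : ℝ) ^ t ≤ (6 * μ) ^ t := by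
    calc (t : ℝ) ^ t ≤ Real.exp (t : ℝ) * (t.factorial : ℝ) := h1
      _ ≤ 3 ^ t * (2 * μ ^ t) :=
        mul_le_mul h2 h (Nat.cast_nonneg _) (by positivity)
      _ ≤ 3 ^ t * (2 ^ t * μ ^ t) := by
        apply mul_le_mul_of_nonneg_left _ (by positivity)
        exact mul_le_mul_of_nonneg_right h3 (by positivity)
      _ = (6 * μ) ^ t := by
        rw [mul_pow, show (6 : ℝ) = 3 * 2 by norm_num, mul_pow]; ring
  exact le_of_pow_le_pow_left₀ (Nat.pos_iff_ne_zero.1 ht) (by positivity) h4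

/-- **Connected case.** Let `H` have maximum degree at most `Δ ≥ 1`, and let `q ∈ [0,1]` be such
that every subgraph of `H` has expected count at least `1/2` in `G(n,q)`.  Then every subgraph
`F ≤ H` with connected support satisfies `N(H,F) ≤ N(K_n,F) (24 Δ q)^{e(F)}`. -/
theorem connected_case (H : SimpleGraph (Fin n)) (Δ : ℕ) (hΔ : 1 ≤ Δ)
    (hdeg : ∀ v, (H.neighborSet v).ncard ≤ Δ) (q : ℝ) (hq0 : 0 ≤ q) (hq1 : q ≤ 1)
    (hyp : ∀ F' : SimpleGraph (Fin n), F' ≤ H → 1 / 2 ≤ expCount q F')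
    (F : SimpleGraph (Fin n)) (hF : F ≤ H) (hconn : ConnSupp F) :
    (subCount H F : ℝ) ≤
      (subCount (⊤ : SimpleGraph (Fin n)) F : ℝ) * (24 * Δ * q) ^ F.edgeSet.ncard := by
  set v := F.support.ncard with hv
  set e := F.edgeSet.ncard with he
  have hne : Nonempty ↥F.support := hconn.nonempty
  have hv1 : 1 ≤ v := by
    rw [hv, ← Nat.card_coe_set_eq]
    exact Nat.card_pos
  -- `v ≤ e + 1`
  have hve : v ≤ e + 1 := by
    have h1 := hconn.card_vert_le_card_edgeSet_add_one
    have h2 : Nat.card (F.induce F.support).edgeSet ≤ Nat.card F.edgeSet :=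
      Nat.card_le_card_of_injective _ (SimpleGraph.Embedding.induce F.support).mapEdgeSet.injective
    simp only [Nat.card_coe_set_eq] at h1 h2
    omega
  -- `e ≥ 1`
  have he1 : 1 ≤ e := by
    obtain ⟨⟨a, b, hab⟩⟩ := hne
    rw [he, Nat.succ_le_iff, Set.ncard_pos]
    exact ⟨s(a, b), hab⟩
  set C := copies H F with hC
  let R : SimpleGraph (Fin n) → SimpleGraph (Fin n) → Prop :=
    fun D D' => ∃ u, u ∈ D.support ∧ u ∈ D'.support
  have hsupp_card : ∀ D ∈ C, D.support.ncard = v := by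
    intro D hD
    obtain ⟨-, σ, rfl⟩ := mem_copies.1 hD
    exact support_ncard_pm σ F
  have hrefl : ∀ D ∈ C, R D D := by
    intro D hD
    have h := hsupp_card D hD
    have hpos : 0 < D.support.ncard := by omega
    obtain ⟨u, hu⟩ := (Set.ncard_pos).1 hpos
    exact ⟨u, hu, hu⟩
  have hsymm : ∀ D D', R D D' → R D' D := fun D D' ⟨u, h1, h2⟩ => ⟨u, h2, h1⟩
  set K := v * (v * Δ ^ (v - 1)) with hKdef
  have hK : ∀ D ∈ C, (C.filter (fun D' => R D D')).card ≤ K := by
    intro D hD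
    have hsub : C.filter (fun D' => R D D') ⊆
        D.support.toFinset.biUnion (fun u => C.filter (fun G' => u ∈ G'.support)) := by
      intro D' hD'
      rw [Finset.mem_filter] at hD'
      obtain ⟨hD'C, u, hu1, hu2⟩ := hD'
      rw [Finset.mem_biUnion]
      exact ⟨u, by rw [Set.mem_toFinset]; exact hu1, Finset.mem_filter.2 ⟨hD'C, hu2⟩⟩
    calc (C.filter (fun D' => R D D')).card
        ≤ (D.support.toFinset.biUnion (fun u => C.filter (fun G' => u ∈ G'.support))).card :=
          Finset.card_le_card hsub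
      _ ≤ ∑ u ∈ D.support.toFinset, (C.filter (fun G' => u ∈ G'.support)).card :=
          Finset.card_biUnion_le
      _ ≤ ∑ _u ∈ D.support.toFinset, v * Δ ^ (v - 1) :=
          Finset.sum_le_sum fun u _ => card_copies_through H Δ hdeg F hconn u
      _ = K := by
          rw [Finset.sum_const, smul_eq_mul, ← Set.ncard_eq_toFinset_card', hsupp_card D hD]
  obtain ⟨D, hDsub, hDpair, hCD⟩ := exists_sparse_subfamily C R hrefl hsymm K hK
  set t := D.card with ht
  have hDcop : ∀ G ∈ D, ∃ τ : Equiv.Perm (Fin n), G = pm τ F := fun G hG =>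
    (mem_copies.1 (hDsub hG)).2
  set U := sSup (D : Set (SimpleGraph (Fin n))) with hU
  have hUH : U ≤ H := sSup_le fun G hG => (mem_copies.1 (hDsub hG)).1
  have hUe : U.edgeSet.ncard = t * e := edge_ncard_sSup F D hDcop hDpair
  have htuple := factorial_mul_subCount_top_le F D hDcop
  have hypU := hyp U hUH
  unfold expCount at hypU
  rw [hUe] at hypU
  -- real arithmetic
  set N : ℝ := (subCount (⊤ : SimpleGraph (Fin n)) F : ℝ) with hN
  have hN0 : 0 ≤ N := Nat.cast_nonneg _
  set μ : ℝ := N * q ^ e with hμ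
  have hμ0 : 0 ≤ μ := mul_nonneg hN0 (pow_nonneg hq0 e)
  have hfac : (t.factorial : ℝ) ≤ 2 * μ ^ t := by
    have h1 : (t.factorial : ℝ) * (subCount (⊤ : SimpleGraph (Fin n)) U : ℝ) ≤ N ^ t := by
      rw [hN]
      exact_mod_cast htuple
    have h2 : (t.factorial : ℝ) * (1 / 2) ≤
        (t.factorial : ℝ) * ((subCount (⊤ : SimpleGraph (Fin n)) U : ℝ) * q ^ (t * e)) :=
      mul_le_mul_of_nonneg_left hypU (Nat.cast_nonneg _)
    have h3 : (t.factorial : ℝ) * ((subCount (⊤ : SimpleGraph (Fin n)) U : ℝ) * q ^ (t * e)) ≤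
        N ^ t * q ^ (t * e) := by
      rw [← mul_assoc]
      exact mul_le_mul_of_nonneg_right h1 (pow_nonneg hq0 _)
    have h4 : N ^ t * q ^ (t * e) = μ ^ t := by
      rw [hμ, mul_pow, ← pow_mul, mul_comm e t]
    linarith
  have ht6 : (t : ℝ) ≤ 6 * μ := le_six_mul_of_factorial_le t μ hμ0 hfac
  -- combine
  have hcount : (subCount H F : ℝ) ≤ (K : ℝ) * (t : ℝ) := by
    rw [subCount_eq_card_copies]
    exact_mod_cast hCD
  have hKbound : (K : ℝ) * 6 ≤ (24 * Δ : ℝ) ^ e := by
    have hΔ' : (1 : ℝ) ≤ (Δ : ℝ) := by exact_mod_cast hΔ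
    have h1 : (v : ℝ) ^ 2 ≤ 4 ^ e := by
      have hve' : (v : ℝ) ≤ (e : ℝ) + 1 := by exact_mod_cast hve
      have h4 : ∀ k : ℕ, ((k : ℝ) + 1) ^ 2 ≤ 4 ^ k ∨ k = 0 := by
        intro k
        induction k with
        | zero => right; rfl
        | succ k ih =>
          left
          rcases ih with ih | rfl
          · push_cast
            have hk : (0 : ℝ) ≤ (k : ℝ) := Nat.cast_nonneg k
            have h44 : (4 : ℝ) ^ (k + 1) = 4 * 4 ^ k := by ring
            rw [h44]
            nlinarith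
          · norm_num
      rcases h4 e with h | h
      · calc (v : ℝ) ^ 2 ≤ ((e : ℝ) + 1) ^ 2 := by
              apply pow_le_pow_left₀ (Nat.cast_nonneg _) hve'
          _ ≤ 4 ^ e := h
      · omega
    have h2 : (Δ : ℝ) ^ (v - 1) ≤ (Δ : ℝ) ^ e := pow_le_pow_right₀ hΔ' (by omega)
    have h3 : (6 : ℝ) ≤ 6 ^ e := by
      calc (6 : ℝ) = 6 ^ 1 := by norm_num
        _ ≤ 6 ^ e := pow_le_pow_right₀ (by norm_num) he1
    have hK' : (K : ℝ) = (v : ℝ) ^ 2 * (Δ : ℝ) ^ (v - 1) := by
      rw [hKdef]; push_cast; ring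
    rw [hK']
    calc (v : ℝ) ^ 2 * (Δ : ℝ) ^ (v - 1) * 6
        ≤ 4 ^ e * (Δ : ℝ) ^ e * 6 ^ e := by
          apply mul_le_mul _ h3 (by norm_num) (by positivity)
          exact mul_le_mul h1 h2 (by positivity) (by positivity)
      _ = (24 * Δ : ℝ) ^ e := by
          rw [show (24 : ℝ) = 4 * 6 by norm_num, mul_pow, mul_pow]; ring
  calc (subCount H F : ℝ) ≤ (K : ℝ) * (t : ℝ) := hcount
    _ ≤ (K : ℝ) * (6 * μ) := mul_le_mul_of_nonneg_left ht6 (Nat.cast_nonneg _)
    _ = (K : ℝ) * 6 * μ := by ring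
    _ ≤ (24 * Δ : ℝ) ^ e * μ := mul_le_mul_of_nonneg_right hKbound hμ0
    _ = N * (24 * Δ * q) ^ e := by
        rw [hμ, mul_pow (24 * (Δ : ℝ)) q e]; ring

end Vale.Agent.H17.KK
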