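import Mathlib
import Vale.Agent.H17.KK.Basic
import Vale.Agent.H17.KK.Rooted

/-!
Multiplicativity of permutation counts over vertex-disjoint unions.
-/

namespace Vale.Agent.H17.KK

open Classical

variable {n : ℕ}

/-- The number of permutations of `Fin n` fixing a set `S` pointwise is `(n - |S|)!`. -/
lemma card_fix (S : Finset (Fin n)) :
    Nat.card {ρ : Equiv.Perm (Fin n) // ∀ a ∈ S, ρ a = a} = (n - S.card).factorial := by
  have e1 : {ρ : Equiv.Perm (Fin n) // ∀ a ∈ S, ρ a = a} ≃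
      {ρ : Equiv.Perm (Fin n) // ∀ a, ¬ (a ∉ S) → ρ a = a} :=
    Equiv.subtypeEquivRight fun ρ => by
      constructor
      · intro h a ha
        exact h a (not_not.1 ha)
      · intro h a ha
        exact h a (not_not.2 ha)
  have e2 := Equiv.Perm.subtypeEquivSubtypePerm (fun a : Fin n => a ∉ S)
  rw [Nat.card_congr e1, ← Nat.card_congr e2, Nat.card_perm]
  congr 1
  rw [Nat.card_eq_fintype_card, Fintype.card_subtype]
  have : (Finset.univ.filter fun a : Fin n => a ∉ S) = Sᶜ := by
    ext a; simp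
  rw [this, Finset.card_compl, Fintype.card_fin]

/-- If all fibres of `f : X → Y` have at most `k` elements then `|X| ≤ k |Y|`. -/
lemma card_le_mul_of_fiber_le {X Y : Type} [Finite X] [Finite Y] (f : X → Y) (k : ℕ)
    (hk : ∀ y, Nat.card {x : X // f x = y} ≤ k) : Nat.card X ≤ k * Nat.card Y := by
  have : Fintype Y := Fintype.ofFinite Y
  rw [← Nat.card_congr (Equiv.sigmaFiberEquiv f), Nat.card_sigma]
  calc ∑ y : Y, Nat.card {x : X // f x = y} ≤ ∑ _y : Y, k := Finset.sum_le_sum fun y _ => hk y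
    _ = k * Nat.card Y := by
      rw [Finset.sum_const, smul_eq_mul, Finset.card_univ, Nat.card_eq_fintype_card, mul_comm]

/-- **Multiplicativity.** If the supports of `F₁`, `F₂` lie in disjoint sets `S₁`, `S₂`, then
`P(F₁ ⊔ F₂) (n-|S₁|)! (n-|S₂|)! ≤ P(F₁) P(F₂) (n-|S₁|-|S₂|)!`, where `P(F)` is the number of
permutations mapping `F` into `H`. -/
lemma permCount_sup_le (H F₁ F₂ : SimpleGraph (Fin n)) (S₁ S₂ : Finset (Fin n))
    (hdisj : Disjoint S₁ S₂) (h1 : ∀ a ∈ F₁.support, a ∈ S₁) (h2 : ∀ a ∈ F₂.support, a ∈ S₂) :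
    permCount H (F₁ ⊔ F₂) * ((n - S₁.card).factorial * (n - S₂.card).factorial) ≤
      (n - (S₁.card + S₂.card)).factorial * (permCount H F₁ * permCount H F₂) := by
  let A := {σ : Equiv.Perm (Fin n) // pm σ (F₁ ⊔ F₂) ≤ H}
  let A₁ := {σ : Equiv.Perm (Fin n) // pm σ F₁ ≤ H}
  let A₂ := {σ : Equiv.Perm (Fin n) // pm σ F₂ ≤ H}
  let U₁ := {ρ : Equiv.Perm (Fin n) // ∀ a ∈ S₁, ρ a = a}
  let U₂ := {ρ : Equiv.Perm (Fin n) // ∀ a ∈ S₂, ρ a = a}
  let U := {ρ : Equiv.Perm (Fin n) // ∀ a ∈ S₁ ∪ S₂, ρ a = a}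
  let Ψ : A × U₁ × U₂ → A₁ × A₂ := fun x =>
    (⟨x.1.1 * x.2.1.1, by
        rw [pm_mul, pm_eq_self_of_fix (fun a ha => x.2.1.2 a (h1 a ha))]
        exact le_trans (pm_mono _ le_sup_left) x.1.2⟩,
     ⟨x.1.1 * x.2.2.1, by
        rw [pm_mul, pm_eq_self_of_fix (fun a ha => x.2.2.2 a (h2 a ha))]
        exact le_trans (pm_mono _ le_sup_right) x.1.2⟩)
  have hfib : ∀ y : A₁ × A₂, Nat.card {x : A × U₁ × U₂ // Ψ x = y} ≤ Nat.card U := by
    intro y
    by_cases hne : Nonempty {x : A × U₁ × U₂ // Ψ x = y}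
    · obtain ⟨⟨x₀, hx₀⟩⟩ := hne
      have key : ∀ x : {x : A × U₁ × U₂ // Ψ x = y},
          (x.1.1.1 * x.1.2.1.1 = x₀.1.1 * x₀.2.1.1) ∧ (x.1.1.1 * x.1.2.2.1 = x₀.1.1 * x₀.2.2.1) := by
        intro x
        have h := x.2.trans hx₀.symm
        have ha := congrArg (fun p : A₁ × A₂ => p.1.1) h
        have hb := congrArg (fun p : A₁ × A₂ => p.2.1) h
        exact ⟨ha, hb⟩
      let g : {x : A × U₁ × U₂ // Ψ x = y} → U := fun x =>
        ⟨x₀.1.1⁻¹ * x.1.1.1, by
          intro a ha
          rcases Finset.mem_union.1 ha with ha | ha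
          · have hk := (key x).1
            have e : x₀.1.1⁻¹ * x.1.1.1 = x₀.2.1.1 * x.1.2.1.1⁻¹ := by
              rw [inv_mul_eq_iff_eq_mul, ← mul_assoc, ← hk]; simp
            rw [e]
            have hx1 : x.1.2.1.1⁻¹ a = a := by
              rw [Equiv.Perm.inv_eq_iff_eq]; exact (x.1.2.1.2 a ha).symm
            show x₀.2.1.1 (x.1.2.1.1⁻¹ a) = a
            rw [hx1]; exact x₀.2.1.2 a ha
          · have hk := (key x).2
            have e : x₀.1.1⁻¹ * x.1.1.1 = x₀.2.2.1 * x.1.2.2.1⁻¹ := by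
              rw [inv_mul_eq_iff_eq_mul, ← mul_assoc, ← hk]; simp
            rw [e]
            have hx1 : x.1.2.2.1⁻¹ a = a := by
              rw [Equiv.Perm.inv_eq_iff_eq]; exact (x.1.2.2.2 a ha).symm
            show x₀.2.2.1 (x.1.2.2.1⁻¹ a) = a
            rw [hx1]; exact x₀.2.2.2 a ha⟩
      have hg : Function.Injective g := by
        intro x x' hxx'
        have hσ : x.1.1.1 = x'.1.1.1 := by
          have := congrArg Subtype.val hxx'
          exact mul_left_cancel this
        have hρ1 : x.1.2.1.1 = x'.1.2.1.1 := by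
          have := (key x).1.trans (key x').1.symm
          rw [hσ] at this
          exact mul_left_cancel this
        have hρ2 : x.1.2.2.1 = x'.1.2.2.1 := by
          have := (key x).2.trans (key x').2.symm
          rw [hσ] at this
          exact mul_left_cancel this
        apply Subtype.ext
        apply Prod.ext
        · exact Subtype.ext hσ
        · apply Prod.ext
          · exact Subtype.ext hρ1
          · exact Subtype.ext hρ2
      exact Nat.card_le_card_of_injective g hg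
    · rw [not_nonempty_iff] at hne
      simp
  have hmain := card_le_mul_of_fiber_le Ψ (Nat.card U) hfib
  rw [Nat.card_prod, Nat.card_prod, Nat.card_prod] at hmain
  have hU₁ : Nat.card U₁ = (n - S₁.card).factorial := card_fix S₁
  have hU₂ : Nat.card U₂ = (n - S₂.card).factorial := card_fix S₂
  have hU : Nat.card U = (n - (S₁.card + S₂.card)).factorial := by
    have := card_fix (S₁ ∪ S₂)
    rw [Finset.card_union_of_disjoint hdisj] at this
    exact this
  rw [hU₁, hU₂, hU] at hmain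
  exact hmain

end Vale.Agent.H17.KK
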