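import Mathlib
import Vale.Agent.H17.KK.Connected
import Vale.Agent.H17.KK.Mult

/-!
From subgraphs with connected support to arbitrary subgraphs.
-/

namespace Vale.Agent.H17.KK

open Classical

variable {n : ℕ}

/-- Split off a connected piece: a graph with an edge is the union of a graph `F₁` with connected
support and a graph `F₂`, whose supports are separated by a vertex set `C`. -/
lemma exists_decomp (F : SimpleGraph (Fin n)) (hF : F ≠ ⊥) :
    ∃ (F₁ F₂ : SimpleGraph (Fin n)) (C : Set (Fin n)), F = F₁ ⊔ F₂ ∧ ConnSupp F₁ ∧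
      (∀ a ∈ F₁.support, a ∈ C) ∧ (∀ a ∈ F₂.support, a ∉ C) ∧
      F.edgeSet.ncard = F₁.edgeSet.ncard + F₂.edgeSet.ncard ∧ 1 ≤ F₁.edgeSet.ncard := by
  obtain ⟨x, y, hxy⟩ := SimpleGraph.ne_bot_iff_exists_adj.1 hF
  let c := F.connectedComponentMk x
  let C : Set (Fin n) := c.supp
  have hadjC : ∀ a b, F.Adj a b → (a ∈ C ↔ b ∈ C) := fun a b h => c.mem_supp_congr_adj h
  let F₁ : SimpleGraph (Fin n) :=
    { Adj := fun a b => F.Adj a b ∧ a ∈ C
      symm := ⟨fun a b h => ⟨h.1.symm, (hadjC a b h.1).1 h.2⟩⟩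
      loopless := ⟨fun a h => F.irrefl h.1⟩ }
  let F₂ : SimpleGraph (Fin n) :=
    { Adj := fun a b => F.Adj a b ∧ a ∉ C
      symm := ⟨fun a b h => ⟨h.1.symm, fun hb => h.2 ((hadjC a b h.1).2 hb)⟩⟩
      loopless := ⟨fun a h => F.irrefl h.1⟩ }
  have hsup : F = F₁ ⊔ F₂ := by
    ext a b
    rw [SimpleGraph.sup_adj]
    constructor
    · intro h
      by_cases ha : a ∈ C
      · exact Or.inl ⟨h, ha⟩
      · exact Or.inr ⟨h, ha⟩
    · rintro (h | h) <;> exact h.1
  have hxC : x ∈ C := rfl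
  have hyC : y ∈ C := (hadjC x y hxy).1 hxC
  have hconnC : (F.induce C).Connected :=
    (SimpleGraph.ConnectedComponent.maximal_connected_induce_supp c).prop
  have hind : F₁.induce C = F.induce C := by
    ext a b
    show F₁.Adj a.1 b.1 ↔ F.Adj a.1 b.1
    exact ⟨fun h => h.1, fun h => ⟨h, a.2⟩⟩
  have hsupp1 : F₁.support = C := by
    ext z
    constructor
    · rintro ⟨w, hw⟩
      exact hw.2
    · intro hz
      have hnt : Nontrivial ↥C :=
        ⟨⟨⟨x, hxC⟩, ⟨y, hyC⟩, fun h => F.ne_of_adj hxy (congrArg Subtype.val h)⟩⟩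
      obtain ⟨w, hw⟩ := hconnC.preconnected.exists_adj_of_nontrivial ⟨z, hz⟩
      exact ⟨w.1, hw, hz⟩
  refine ⟨F₁, F₂, C, hsup, ?_, ?_, ?_, ?_, ?_⟩
  · unfold ConnSupp
    rw [hsupp1, hind]
    exact hconnC
  · intro a ha
    rw [hsupp1] at ha
    exact ha
  · rintro a ⟨w, hw⟩
    exact hw.2
  · have hE : F.edgeSet = F₁.edgeSet ∪ F₂.edgeSet := by
      have := congrArg SimpleGraph.edgeSet hsup
      rw [SimpleGraph.edgeSet_sup] at this
      exact this
    have hdisj : Disjoint F₁.edgeSet F₂.edgeSet := by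
      rw [Set.disjoint_left]
      intro e h1 h2
      induction e using Sym2.ind with
      | _ a b =>
        have h1' : F₁.Adj a b := h1
        have h2' : F₂.Adj a b := h2
        exact h2'.2 h1'.2
    rw [hE, Set.ncard_union_eq hdisj]
  · rw [Nat.succ_le_iff, Set.ncard_pos]
    exact ⟨s(x, y), (⟨hxy, hxC⟩ : F₁.Adj x y)⟩

lemma factorial_le_mul_pow (n s : ℕ) (h : s ≤ n) : n.factorial ≤ (n - s).factorial * n ^ s := by
  rw [← Nat.factorial_mul_descFactorial h]
  exact Nat.mul_le_mul_left _ (Nat.descFactorial_le_pow n s)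

lemma permCount_bot (H : SimpleGraph (Fin n)) :
    permCount H (⊥ : SimpleGraph (Fin n)) = n.factorial := by
  unfold permCount
  have e : {σ : Equiv.Perm (Fin n) // pm σ (⊥ : SimpleGraph (Fin n)) ≤ H} ≃ Equiv.Perm (Fin n) :=
    { toFun := fun σ => σ.1
      invFun := fun σ => ⟨σ, by rw [pm_bot]; exact bot_le⟩
      left_inv := fun σ => rfl
      right_inv := fun σ => rfl }
  rw [Nat.card_congr e, Nat.card_perm, Nat.card_eq_fintype_card, Fintype.card_fin]

/-- Induction over connected pieces. -/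
theorem general_perm_bound (H : SimpleGraph (Fin n)) (x : ℝ) (hx : 0 ≤ x)
    (hconn : ∀ F₁ : SimpleGraph (Fin n), F₁ ≤ H → ConnSupp F₁ →
      (permCount H F₁ : ℝ) ≤ (n.factorial : ℝ) * x ^ F₁.edgeSet.ncard) :
    ∀ (k : ℕ) (F : SimpleGraph (Fin n)), F.edgeSet.ncard = k → F ≤ H →
      ∀ S : Finset (Fin n), (∀ a ∈ F.support, a ∈ S) →
        (permCount H F : ℝ) ≤ ((n - S.card).factorial : ℝ) * (n : ℝ) ^ S.card * x ^ k := by
  intro k
  induction k using Nat.strong_induction_on with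
  | _ k ih =>
    intro F hFk hFH S hS
    have hSn : S.card ≤ n := by
      have := Finset.card_le_univ S
      simpa using this
    by_cases hF : F = ⊥
    · subst hF
      have hk0 : k = 0 := by
        rw [← hFk]
        simp
      rw [permCount_bot, hk0, pow_zero, mul_one]
      exact_mod_cast factorial_le_mul_pow n S.card hSn
    · obtain ⟨F₁, F₂, C, hsup, hc1, hs1, hs2, hedge, he1⟩ := exists_decomp F hF
      have hF₁H : F₁ ≤ H := le_trans (by rw [hsup]; exact le_sup_left) hFH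
      have hF₂H : F₂ ≤ H := le_trans (by rw [hsup]; exact le_sup_right) hFH
      have hsuppF : ∀ a, a ∈ F₁.support ∨ a ∈ F₂.support → a ∈ F.support := by
        intro a ha
        rw [hsup]
        rcases ha with ⟨w, hw⟩ | ⟨w, hw⟩
        · exact ⟨w, Or.inl hw⟩
        · exact ⟨w, Or.inr hw⟩
      set S₁ := S.filter (fun a => a ∈ C) with hS₁
      set S₂ := S.filter (fun a => a ∉ C) with hS₂
      have hdisj : Disjoint S₁ S₂ := by
        rw [Finset.disjoint_left]
        intro a ha hb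
        exact (Finset.mem_filter.1 hb).2 (Finset.mem_filter.1 ha).2
      have hcardS : S₁.card + S₂.card = S.card := by
        rw [← Finset.card_union_of_disjoint hdisj]
        congr 1
        ext a
        simp only [hS₁, hS₂, Finset.mem_union, Finset.mem_filter]
        tauto
      have h1 : ∀ a ∈ F₁.support, a ∈ S₁ := fun a ha =>
        Finset.mem_filter.2 ⟨hS a (hsuppF a (Or.inl ha)), hs1 a ha⟩
      have h2 : ∀ a ∈ F₂.support, a ∈ S₂ := fun a ha =>
        Finset.mem_filter.2 ⟨hS a (hsuppF a (Or.inr ha)), hs2 a ha⟩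
      have hmult := permCount_sup_le H F₁ F₂ S₁ S₂ hdisj h1 h2
      rw [← hsup, hcardS] at hmult
      set e₁ := F₁.edgeSet.ncard with he₁
      set e₂ := F₂.edgeSet.ncard with he₂
      have hk : k = e₁ + e₂ := by rw [← hFk, hedge]
      have hIH := ih e₂ (by omega) F₂ rfl hF₂H S₂ h2
      have hC1 := hconn F₁ hF₁H hc1
      have hS₁n : S₁.card ≤ n := by omega
      have hfac1 : (n.factorial : ℝ) ≤ ((n - S₁.card).factorial : ℝ) * (n : ℝ) ^ S₁.card := by
        exact_mod_cast factorial_le_mul_pow n S₁.card hS₁n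
      have hP1 : (permCount H F₁ : ℝ) ≤
          ((n - S₁.card).factorial : ℝ) * (n : ℝ) ^ S₁.card * x ^ e₁ :=
        le_trans hC1 (mul_le_mul_of_nonneg_right hfac1 (pow_nonneg hx _))
      have hmultR : (permCount H F : ℝ) *
          (((n - S₁.card).factorial : ℝ) * ((n - S₂.card).factorial : ℝ)) ≤
          ((n - S.card).factorial : ℝ) * ((permCount H F₁ : ℝ) * (permCount H F₂ : ℝ)) := by
        exact_mod_cast hmult
      set a₁ : ℝ := ((n - S₁.card).factorial : ℝ) with ha₁
      set a₂ : ℝ := ((n - S₂.card).factorial : ℝ) with ha₂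
      set a : ℝ := ((n - S.card).factorial : ℝ) with ha
      have ha₁pos : 0 < a₁ := by rw [ha₁]; exact_mod_cast Nat.factorial_pos _
      have ha₂pos : 0 < a₂ := by rw [ha₂]; exact_mod_cast Nat.factorial_pos _
      have hapos : 0 < a := by rw [ha]; exact_mod_cast Nat.factorial_pos _
      have hn0 : (0 : ℝ) ≤ (n : ℝ) := Nat.cast_nonneg n
      have hP1nn : (0 : ℝ) ≤ (permCount H F₁ : ℝ) := Nat.cast_nonneg _
      have hP2nn : (0 : ℝ) ≤ (permCount H F₂ : ℝ) := Nat.cast_nonneg _
      have hprod : (permCount H F₁ : ℝ) * (permCount H F₂ : ℝ) ≤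
          (a₁ * (n : ℝ) ^ S₁.card * x ^ e₁) * (a₂ * (n : ℝ) ^ S₂.card * x ^ e₂) :=
        mul_le_mul hP1 hIH hP2nn (by positivity)
      have hfinal : (permCount H F : ℝ) * (a₁ * a₂) ≤
          (a * (n : ℝ) ^ S.card * x ^ k) * (a₁ * a₂) := by
        calc (permCount H F : ℝ) * (a₁ * a₂)
            ≤ a * ((permCount H F₁ : ℝ) * (permCount H F₂ : ℝ)) := hmultR
          _ ≤ a * ((a₁ * (n : ℝ) ^ S₁.card * x ^ e₁) * (a₂ * (n : ℝ) ^ S₂.card * x ^ e₂)) :=
              mul_le_mul_of_nonneg_left hprod hapos.le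
          _ = (a * (n : ℝ) ^ S.card * x ^ k) * (a₁ * a₂) := by
              rw [hk, ← hcardS, pow_add, pow_add]; ring
      exact le_of_mul_le_mul_right hfinal (mul_pos ha₁pos ha₂pos)

/-- `|support F| ≤ 2 e(F)`. -/
lemma support_ncard_le (F : SimpleGraph (Fin n)) : F.support.ncard ≤ 2 * F.edgeSet.ncard := by
  have hsub : F.support.toFinset ⊆ F.edgeSet.toFinset.biUnion (fun e => e.toFinset) := by
    intro z hz
    rw [Set.mem_toFinset] at hz
    obtain ⟨w, hw⟩ := hz
    rw [Finset.mem_biUnion]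
    refine ⟨s(z, w), ?_, ?_⟩
    · rw [Set.mem_toFinset]; exact hw
    · rw [Sym2.mem_toFinset]; exact Sym2.mem_mk_left z w
  rw [Set.ncard_eq_toFinset_card', Set.ncard_eq_toFinset_card']
  calc F.support.toFinset.card
      ≤ (F.edgeSet.toFinset.biUnion (fun e => e.toFinset)).card := Finset.card_le_card hsub
    _ ≤ ∑ e ∈ F.edgeSet.toFinset, e.toFinset.card := Finset.card_biUnion_le
    _ ≤ ∑ _e ∈ F.edgeSet.toFinset, 2 := by
        apply Finset.sum_le_sum
        intro e _
        rw [Sym2.card_toFinset]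
        split_ifs <;> omega
    _ = 2 * F.edgeSet.toFinset.card := by rw [Finset.sum_const, smul_eq_mul, mul_comm]

lemma pow_self_le_three_pow_mul_factorial (t : ℕ) : t ^ t ≤ 3 ^ t * t.factorial := by
  have h1 : (t : ℝ) ^ t / (t.factorial : ℝ) ≤ Real.exp (t : ℝ) :=
    Real.pow_div_factorial_le_exp (t : ℝ) (Nat.cast_nonneg t) t
  have hfpos : (0 : ℝ) < (t.factorial : ℝ) := by exact_mod_cast Nat.factorial_pos t
  rw [div_le_iff₀ hfpos] at h1
  have h2 : Real.exp (t : ℝ) ≤ 3 ^ t := by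
    have : Real.exp (t : ℝ) = Real.exp 1 ^ t := by
      rw [← Real.exp_nat_mul]; simp
    rw [this]
    exact pow_le_pow_left₀ (Real.exp_pos 1).le Real.exp_one_lt_three.le t
  have h3 : (t : ℝ) ^ t ≤ 3 ^ t * (t.factorial : ℝ) :=
    le_trans h1 (mul_le_mul_of_nonneg_right h2 hfpos.le)
  exact_mod_cast h3

lemma pow_mul_factorial_le (n s : ℕ) (h : s ≤ n) :
    n ^ s * (n - s).factorial ≤ 3 ^ s * n.factorial := by
  -- Step A: `n^s * s! ≤ s^s * (n)_s`
  have hA : n ^ s * s.factorial ≤ s ^ s * n.descFactorial s := by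
    rw [← Nat.descFactorial_self s, Nat.descFactorial_eq_prod_range, Nat.descFactorial_eq_prod_range]
    have e1 : n ^ s = ∏ _i ∈ Finset.range s, n := by rw [Finset.prod_const, Finset.card_range]
    have e2 : s ^ s = ∏ _i ∈ Finset.range s, s := by rw [Finset.prod_const, Finset.card_range]
    rw [e1, e2, ← Finset.prod_mul_distrib, ← Finset.prod_mul_distrib]
    apply Finset.prod_le_prod'
    intro i hi
    rw [Finset.mem_range] at hi
    obtain ⟨j, rfl⟩ : ∃ j, s = i + j := ⟨s - i, by omega⟩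
    obtain ⟨k, rfl⟩ : ∃ k, n = i + j + k := ⟨n - (i + j), by omega⟩
    have e3 : i + j - i = j := by omega
    have e4 : i + j + k - i = j + k := by omega
    rw [e3, e4]
    nlinarith [Nat.zero_le (i * k), Nat.zero_le (j * k), Nat.zero_le (i * j)]
  have hB := pow_self_le_three_pow_mul_factorial s
  have hC : n ^ s * s.factorial ≤ (3 ^ s * n.descFactorial s) * s.factorial := by
    calc n ^ s * s.factorial ≤ s ^ s * n.descFactorial s := hA
      _ ≤ (3 ^ s * s.factorial) * n.descFactorial s := Nat.mul_le_mul_right _ hB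
      _ = (3 ^ s * n.descFactorial s) * s.factorial := by ring
  have hD : n ^ s ≤ 3 ^ s * n.descFactorial s :=
    Nat.le_of_mul_le_mul_right hC (Nat.factorial_pos s)
  calc n ^ s * (n - s).factorial ≤ (3 ^ s * n.descFactorial s) * (n - s).factorial :=
        Nat.mul_le_mul_right _ hD
    _ = 3 ^ s * ((n - s).factorial * n.descFactorial s) := by ring
    _ = 3 ^ s * n.factorial := by rw [Nat.factorial_mul_descFactorial h]

/-- **Counting inequality for graphs of bounded degree.** Let `H` have maximum degree at most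
`Δ ≥ 1` and let `q ∈ [0,1]` be such that every subgraph of `H` has expected count at least `1/2`
in `G(n,q)`.  Then every subgraph `F ≤ H` satisfies `N(H,F) ≤ N(K_n,F) (216 Δ q)^{e(F)}`. -/
theorem counting_bounded_degree (H : SimpleGraph (Fin n)) (Δ : ℕ) (hΔ : 1 ≤ Δ)
    (hdeg : ∀ v, (H.neighborSet v).ncard ≤ Δ) (q : ℝ) (hq0 : 0 ≤ q) (hq1 : q ≤ 1)
    (hyp : ∀ F' : SimpleGraph (Fin n), F' ≤ H → 1 / 2 ≤ expCount q F')
    (F : SimpleGraph (Fin n)) (hF : F ≤ H) :
    (subCount H F : ℝ) ≤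
      (subCount (⊤ : SimpleGraph (Fin n)) F : ℝ) * (216 * Δ * q) ^ F.edgeSet.ncard := by
  set x : ℝ := 24 * Δ * q with hx
  have hx0 : 0 ≤ x := by rw [hx]; positivity
  have hconn : ∀ F₁ : SimpleGraph (Fin n), F₁ ≤ H → ConnSupp F₁ →
      (permCount H F₁ : ℝ) ≤ (n.factorial : ℝ) * x ^ F₁.edgeSet.ncard := by
    intro F₁ hF₁ hc
    exact permCount_le_of_subCount_le H F₁ _
      (connected_case H Δ hΔ hdeg q hq0 hq1 hyp F₁ hF₁ hc)
  set S := F.support.toFinset with hS
  set e := F.edgeSet.ncard with he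
  have hbound := general_perm_bound H x hx0 hconn e F rfl hF S
    (fun a ha => by rw [hS, Set.mem_toFinset]; exact ha)
  have hSn : S.card ≤ n := by
    have := Finset.card_le_univ S
    simpa using this
  have hSe : S.card ≤ 2 * e := by
    rw [hS, ← Set.ncard_eq_toFinset_card']
    exact support_ncard_le F
  have h3 : ((n - S.card).factorial : ℝ) * (n : ℝ) ^ S.card ≤ 3 ^ S.card * (n.factorial : ℝ) := by
    have := pow_mul_factorial_le n S.card hSn
    have h' : ((n ^ S.card * (n - S.card).factorial : ℕ) : ℝ) ≤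
        ((3 ^ S.card * n.factorial : ℕ) : ℝ) := by exact_mod_cast this
    push_cast at h'
    linarith
  have h9 : (3 : ℝ) ^ S.card ≤ 9 ^ e := by
    calc (3 : ℝ) ^ S.card ≤ 3 ^ (2 * e) := pow_le_pow_right₀ (by norm_num) hSe
      _ = 9 ^ e := by rw [pow_mul]; norm_num
  apply subCount_le_of_permCount_le
  calc (permCount H F : ℝ) ≤ ((n - S.card).factorial : ℝ) * (n : ℝ) ^ S.card * x ^ e := hbound
    _ ≤ (3 ^ S.card * (n.factorial : ℝ)) * x ^ e :=
        mul_le_mul_of_nonneg_right h3 (pow_nonneg hx0 _)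
    _ ≤ (9 ^ e * (n.factorial : ℝ)) * x ^ e := by
        apply mul_le_mul_of_nonneg_right _ (pow_nonneg hx0 _)
        exact mul_le_mul_of_nonneg_right h9 (Nat.cast_nonneg _)
    _ = (n.factorial : ℝ) * (216 * Δ * q) ^ e := by
        have h216 : (216 * (Δ : ℝ) * q) ^ e = 9 ^ e * x ^ e := by
          rw [← mul_pow, hx]; congr 1; ring
        rw [h216]; ring

end Vale.Agent.H17.KK
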