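import Vale.Agent.H17.KK.General

/-!
Facts about the thresholds `pE` and `pTildeE`: attainment of the infimum defining `pE`, the
bounded degree comparison for every admissible `q`, and a bound on the maximum degree of `H`
coming from the expected number of stars.
-/

namespace Vale.Agent.H17.KK

open Classical

variable {n : ℕ}

/-- The set of densities whose infimum is `pE H`. -/
def pESet (H : SimpleGraph (Fin n)) : Set ℝ :=
  {p : ℝ | 0 ≤ p ∧ p ≤ 1 ∧ ∀ F : SimpleGraph (Fin n), F ≤ H → 1 / 2 ≤ expCount p F}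

lemma pE_eq_sInf (H : SimpleGraph (Fin n)) : pE H = sInf (pESet H) := rfl

lemma one_mem_pESet (H : SimpleGraph (Fin n)) : (1 : ℝ) ∈ pESet H := by
  refine ⟨by norm_num, le_refl _, fun F _ => ?_⟩
  unfold expCount
  have : (1 : ℝ) ≤ (subCount (⊤ : SimpleGraph (Fin n)) F : ℝ) := by
    exact_mod_cast subCount_top_pos F
  simp only [one_pow, mul_one]
  linarith

lemma pESet_isClosed (H : SimpleGraph (Fin n)) : IsClosed (pESet H) := by
  have h : pESet H = {p : ℝ | 0 ≤ p} ∩ ({p : ℝ | p ≤ 1} ∩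
      ⋂ F : SimpleGraph (Fin n), ⋂ (_ : F ≤ H), {p : ℝ | 1 / 2 ≤ expCount p F}) := by
    ext p
    simp only [pESet, Set.mem_setOf_eq, Set.mem_inter_iff, Set.mem_iInter]
  rw [h]
  refine (isClosed_le continuous_const continuous_id).inter
    ((isClosed_le continuous_id continuous_const).inter ?_)
  refine isClosed_iInter fun F => isClosed_iInter fun _ => ?_
  refine isClosed_le continuous_const ?_
  unfold expCount
  exact continuous_const.mul (continuous_pow _)

/-- The infimum defining `pE H` is attained. -/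
lemma pE_mem (H : SimpleGraph (Fin n)) : pE H ∈ pESet H :=
  (pESet_isClosed H).csInf_mem ⟨1, one_mem_pESet H⟩ ⟨0, fun _ hp => hp.1⟩

lemma subCount_le_top (H F : SimpleGraph (Fin n)) :
    subCount H F ≤ subCount (⊤ : SimpleGraph (Fin n)) F := by
  unfold subCount
  apply Set.ncard_le_ncard _ (Set.toFinite _)
  rintro G' ⟨_, hσ⟩
  exact ⟨le_top, hσ⟩

/-- Bounded degree comparison for every admissible density `q`. -/
lemma pTildeE_le_of_mem (H : SimpleGraph (Fin n)) (Δ : ℕ) (hΔ : 1 ≤ Δ)
    (hdeg : ∀ v : Fin n, (H.neighborSet v).ncard ≤ Δ) (q : ℝ) (hq : q ∈ pESet H) :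
    pTildeE H ≤ 216 * (Δ : ℝ) * q := by
  obtain ⟨hq0, hq1, hyp⟩ := hq
  set B : Set ℝ := {p : ℝ | 0 ≤ p ∧ p ≤ 1 ∧
    ∀ F : SimpleGraph (Fin n), F ≤ H → (subCount H F : ℝ) / 2 ≤ expCount p F} with hB
  have hpT : pTildeE H = sInf B := rfl
  have hBbdd : BddBelow B := ⟨0, fun p hp => hp.1⟩
  rw [hpT]
  by_cases hbig : 216 * (Δ : ℝ) * q ≤ 1
  · apply csInf_le hBbdd
    refine ⟨by positivity, hbig, fun F hF => ?_⟩
    have h1 := counting_bounded_degree H Δ hΔ hdeg q hq0 hq1 hyp F hF
    have h0 : (0 : ℝ) ≤ (subCount H F : ℝ) := Nat.cast_nonneg _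
    unfold expCount
    linarith
  · have h1 : (1 : ℝ) ∈ B := by
      refine ⟨by norm_num, le_refl _, fun F _ => ?_⟩
      unfold expCount
      have h0 : (0 : ℝ) ≤ (subCount H F : ℝ) := Nat.cast_nonneg _
      have h2 : (subCount H F : ℝ) ≤ (subCount (⊤ : SimpleGraph (Fin n)) F : ℝ) := by
        exact_mod_cast subCount_le_top H F
      simp only [one_pow, mul_one]
      linarith
    exact (csInf_le hBbdd h1).trans (le_of_lt (not_le.mp hbig))

/-- The star of `H` at `v`: all edges of `H` containing `v`. -/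
def starAt (H : SimpleGraph (Fin n)) (v : Fin n) : SimpleGraph (Fin n) where
  Adj a b := H.Adj a b ∧ (a = v ∨ b = v)
  symm := ⟨fun _ _ h => ⟨h.1.symm, h.2.symm⟩⟩
  loopless := ⟨fun _ h => h.1.ne rfl⟩

lemma starAt_le (H : SimpleGraph (Fin n)) (v : Fin n) : starAt H v ≤ H := fun _ _ h => h.1

lemma starAt_edge_ncard (H : SimpleGraph (Fin n)) (v : Fin n) :
    (starAt H v).edgeSet.ncard = (H.neighborSet v).ncard := by
  have h : (starAt H v).edgeSet = (fun w => s(v, w)) '' H.neighborSet v := by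
    ext e
    induction e using Sym2.ind with
    | _ a b =>
      simp only [SimpleGraph.mem_edgeSet, Set.mem_image, SimpleGraph.mem_neighborSet]
      constructor
      · rintro ⟨h, rfl | rfl⟩
        · exact ⟨b, h, rfl⟩
        · exact ⟨a, h.symm, Sym2.eq_swap⟩
      · rintro ⟨w, hw, he⟩
        rw [Sym2.eq_iff] at he
        rcases he with ⟨rfl, rfl⟩ | ⟨rfl, rfl⟩
        · exact ⟨hw, Or.inl rfl⟩
        · exact ⟨hw.symm, Or.inr rfl⟩
  rw [h]
  apply Set.ncard_image_of_injOn
  intro w _ w' _ hww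
  simp only [Sym2.eq_iff] at hww
  rcases hww with ⟨_, h2⟩ | ⟨h1, h2⟩
  · exact h2
  · rw [h2, h1]

/-- The number of stars with `d` leaves in the complete graph is at most `n * C(n, d)`. -/
lemma subCount_top_starAt_le (H : SimpleGraph (Fin n)) (v : Fin n) :
    subCount (⊤ : SimpleGraph (Fin n)) (starAt H v) ≤ n * n.choose (H.neighborSet v).ncard := by
  set N : Finset (Fin n) := Finset.univ.filter (fun w => H.Adj v w) with hN
  have hNcard : N.card = (H.neighborSet v).ncard := by
    rw [Set.ncard_eq_toFinset_card']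
    congr 1
    ext w
    simp [hN]
  have hadj : ∀ (σ : Equiv.Perm (Fin n)) (a b : Fin n), (pm σ (starAt H v)).Adj a b ↔
      (a = σ v ∧ b ∈ N.image σ) ∨ (b = σ v ∧ a ∈ N.image σ) := by
    intro σ a b
    rw [pm_adj]
    simp only [starAt, hN, Finset.mem_image, Finset.mem_filter, Finset.mem_univ, true_and]
    constructor
    · rintro ⟨h, h' | h'⟩
      · left
        refine ⟨by rw [← h']; simp, σ.symm b, by rw [← h']; exact h, by simp⟩
      · right
        refine ⟨by rw [← h']; simp, σ.symm a, by rw [← h']; exact h.symm, by simp⟩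
    · rintro (⟨rfl, w, hw, rfl⟩ | ⟨rfl, w, hw, rfl⟩)
      · simpa using hw
      · simpa using hw.symm
  let g : SimpleGraph (Fin n) → Fin n × Finset (Fin n) := fun G' =>
    if h : ∃ σ : Equiv.Perm (Fin n), G' = pm σ (starAt H v) then
      (h.choose v, N.image h.choose) else (v, N)
  have htarget : ((Finset.univ : Finset (Fin n)) ×ˢ
      (Finset.powersetCard N.card (Finset.univ : Finset (Fin n)))).card = n * n.choose N.card := by
    rw [Finset.card_product, Finset.card_powersetCard, Finset.card_univ, Fintype.card_fin]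
  unfold subCount
  rw [← hNcard, ← htarget, ← Set.ncard_coe_finset]
  apply Set.ncard_le_ncard_of_injOn g
  · rintro G' ⟨_, hσ⟩
    have hg : g G' = (hσ.choose v, N.image hσ.choose) := dif_pos hσ
    rw [hg]
    simp [Finset.card_image_of_injective _ (hσ.choose).injective]
  · rintro G₁ ⟨_, h₁⟩ G₂ ⟨_, h₂⟩ hg
    have e₁ : g G₁ = (h₁.choose v, N.image h₁.choose) := dif_pos h₁
    have e₂ : g G₂ = (h₂.choose v, N.image h₂.choose) := dif_pos h₂
    rw [e₁, e₂] at hg
    have hv : h₁.choose v = h₂.choose v := congrArg Prod.fst hg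
    have hI : N.image h₁.choose = N.image h₂.choose := congrArg Prod.snd hg
    refine h₁.choose_spec.trans (Eq.trans ?_ h₂.choose_spec.symm)
    ext a b
    rw [hadj, hadj, hv, hI]

/-- Every degree of `H` is at most `max (e^2 n q) (log (2 n))` for every admissible `q`. -/
lemma degree_le_of_mem (H : SimpleGraph (Fin n)) (q : ℝ) (hq : q ∈ pESet H) (v : Fin n) :
    ((H.neighborSet v).ncard : ℝ) ≤ max (Real.exp 2 * n * q) (Real.log (2 * n)) := by
  set d := (H.neighborSet v).ncard with hd
  obtain ⟨hq0, hq1, hyp⟩ := hq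
  have hnpos : 0 < n := Fin.pos v
  have hn0 : (0 : ℝ) < (n : ℝ) := by exact_mod_cast hnpos
  by_contra hcon
  rw [not_le, max_lt_iff] at hcon
  obtain ⟨h1, h2⟩ := hcon
  have hstar := hyp (starAt H v) (starAt_le H v)
  unfold expCount at hstar
  rw [starAt_edge_ncard] at hstar
  have hdfpos : (0 : ℝ) < (d.factorial : ℝ) := by exact_mod_cast Nat.factorial_pos d
  have hcount : (subCount (⊤ : SimpleGraph (Fin n)) (starAt H v) : ℝ) ≤
      n * ((n : ℝ) ^ d / d.factorial) := by
    have h' : (subCount (⊤ : SimpleGraph (Fin n)) (starAt H v) : ℝ) ≤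
        (n : ℝ) * (n.choose d : ℝ) := by exact_mod_cast subCount_top_starAt_le H v
    have h'' : ((n.choose d : ℕ) : ℝ) ≤ (n : ℝ) ^ d / d.factorial := Nat.choose_le_pow_div d n
    exact h'.trans (mul_le_mul_of_nonneg_left h'' hn0.le)
  have hexp := Real.pow_div_factorial_le_exp (d : ℝ) (Nat.cast_nonneg d) d
  have he2 : (0 : ℝ) < Real.exp 2 := Real.exp_pos 2
  have hx : (n : ℝ) * q ≤ d / Real.exp 2 := by
    rw [le_div_iff₀ he2]
    linarith
  have hxd : ((n : ℝ) * q) ^ d ≤ ((d : ℝ) / Real.exp 2) ^ d :=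
    pow_le_pow_left₀ (by positivity) hx d
  have hqd : (0 : ℝ) ≤ q ^ d := pow_nonneg hq0 d
  have key : (1 : ℝ) / 2 ≤ n * Real.exp (-(d : ℝ)) := by
    calc (1 : ℝ) / 2 ≤ (subCount (⊤ : SimpleGraph (Fin n)) (starAt H v) : ℝ) * q ^ d := hstar
      _ ≤ n * ((n : ℝ) ^ d / d.factorial) * q ^ d := mul_le_mul_of_nonneg_right hcount hqd
      _ = n * (((n : ℝ) * q) ^ d / d.factorial) := by rw [mul_pow]; ring
      _ ≤ n * (((d : ℝ) / Real.exp 2) ^ d / d.factorial) := by
          apply mul_le_mul_of_nonneg_left _ hn0.le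
          exact div_le_div_of_nonneg_right hxd hdfpos.le
      _ = n * (((d : ℝ) ^ d / d.factorial) / Real.exp 2 ^ d) := by rw [div_pow]; ring
      _ ≤ n * (Real.exp d / Real.exp 2 ^ d) := by
          apply mul_le_mul_of_nonneg_left _ hn0.le
          exact div_le_div_of_nonneg_right hexp (by positivity)
      _ = n * Real.exp (-(d : ℝ)) := by
          congr 1
          rw [← Real.exp_nat_mul, ← Real.exp_sub]
          congr 1
          ring
  have hfin : Real.exp (d : ℝ) ≤ 2 * n := by
    rw [Real.exp_neg] at key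
    have hpos : (0 : ℝ) < Real.exp (d : ℝ) := Real.exp_pos _
    have : (1 : ℝ) / 2 * Real.exp (d : ℝ) ≤ n := by
      calc (1 : ℝ) / 2 * Real.exp (d : ℝ) ≤ n * (Real.exp (d : ℝ))⁻¹ * Real.exp (d : ℝ) :=
            mul_le_mul_of_nonneg_right key hpos.le
        _ = n := by field_simp
    linarith
  have : (d : ℝ) ≤ Real.log (2 * n) := by
    rw [Real.le_log_iff_exp_le (by positivity)]
    exact hfin
  linarith

end Vale.Agent.H17.KK
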