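import Vale.Agent.H17.KK.PcDefs
import Vale.Agent.H17.KK.Thresholds
import Vale.Agent.H17.PP.Main

/-!
From counting to the threshold `p_c`: the Park–Pham bound applied to the family of edge sets of
the copies of `H` in the complete graph.
-/

namespace Vale.Agent.H17.KK

open Classical Finset Vale.Agent.H17.PP

variable {n : ℕ}

/-- The ground set: all pairs of distinct vertices. -/
noncomputable def ground (n : ℕ) : Finset (Sym2 (Fin n)) :=
  Finset.univ.filter (fun e => ¬ e.IsDiag)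

lemma card_ground (n : ℕ) : (ground n).card = n.choose 2 := by
  unfold ground
  rw [← Fintype.card_subtype]
  have h := Sym2.card_subtype_not_diag (α := Fin n)
  rw [Fintype.card_fin] at h
  convert h

/-- The graph with edge set `W`. -/
noncomputable def gr (W : Finset (Sym2 (Fin n))) : SimpleGraph (Fin n) :=
  SimpleGraph.fromEdgeSet (W : Set (Sym2 (Fin n)))

/-- The edge set of a graph as a finite set. -/
noncomputable def ed (G : SimpleGraph (Fin n)) : Finset (Sym2 (Fin n)) :=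
  Finset.univ.filter (fun e => e ∈ G.edgeSet)

lemma mem_ed {G : SimpleGraph (Fin n)} {e : Sym2 (Fin n)} : e ∈ ed G ↔ e ∈ G.edgeSet := by
  simp [ed]

lemma ed_subset_ground (G : SimpleGraph (Fin n)) : ed G ⊆ ground n := by
  intro e he
  rw [mem_ed] at he
  simp only [ground, Finset.mem_filter, Finset.mem_univ, true_and]
  exact G.not_isDiag_of_mem_edgeSet he

lemma coe_ed (G : SimpleGraph (Fin n)) : (ed G : Set (Sym2 (Fin n))) = G.edgeSet := by
  ext e
  simp [ed]

lemma card_ed (G : SimpleGraph (Fin n)) : (ed G).card = G.edgeSet.ncard := by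
  rw [← coe_ed, Set.ncard_coe_finset]

lemma gr_ed (G : SimpleGraph (Fin n)) : gr (ed G) = G := by
  unfold gr
  rw [coe_ed, SimpleGraph.fromEdgeSet_edgeSet]

lemma ed_gr {W : Finset (Sym2 (Fin n))} (hW : W ⊆ ground n) : ed (gr W) = W := by
  ext e
  rw [mem_ed]
  unfold gr
  rw [SimpleGraph.edgeSet_fromEdgeSet]
  simp only [Set.mem_sdiff, Finset.mem_coe]
  constructor
  · exact fun h => h.1
  · intro h
    have := hW h
    simp only [ground, Finset.mem_filter, Finset.mem_univ, true_and] at this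
    exact ⟨h, this⟩

lemma ed_subset_ed {F G : SimpleGraph (Fin n)} : ed F ⊆ ed G ↔ F ≤ G := by
  rw [← SimpleGraph.edgeSet_subset_edgeSet, ← coe_ed, ← coe_ed, Finset.coe_subset]

lemma subset_ed_iff {W : Finset (Sym2 (Fin n))} (hW : W ⊆ ground n) (G : SimpleGraph (Fin n)) :
    W ⊆ ed G ↔ gr W ≤ G := by
  rw [← ed_subset_ed, ed_gr hW]

lemma ed_subset_iff {W : Finset (Sym2 (Fin n))} (hW : W ⊆ ground n) (F : SimpleGraph (Fin n)) :
    ed F ⊆ W ↔ F ≤ gr W := by
  rw [← ed_subset_ed, ed_gr hW]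

/-- The family of edge sets of all copies of `H` in the complete graph. -/
noncomputable def fam (H : SimpleGraph (Fin n)) : Finset (Finset (Sym2 (Fin n))) :=
  Finset.univ.image (fun σ : Equiv.Perm (Fin n) => ed (pm σ H))

lemma mem_fam {H : SimpleGraph (Fin n)} {T : Finset (Sym2 (Fin n))} :
    T ∈ fam H ↔ ∃ σ : Equiv.Perm (Fin n), ed (pm σ H) = T := by
  simp [fam]

lemma fam_subset_ground (H : SimpleGraph (Fin n)) : ∀ T ∈ fam H, T ⊆ ground n := by
  intro T hT
  obtain ⟨σ, rfl⟩ := mem_fam.1 hT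
  exact ed_subset_ground _

lemma fam_card (H : SimpleGraph (Fin n)) : ∀ T ∈ fam H, T.card ≤ H.edgeSet.ncard := by
  intro T hT
  obtain ⟨σ, rfl⟩ := mem_fam.1 hT
  rw [card_ed, pm_edge_ncard]

lemma exists_fam_subset_iff (H : SimpleGraph (Fin n)) {W : Finset (Sym2 (Fin n))}
    (hW : W ⊆ ground n) :
    (∃ T ∈ fam H, T ⊆ W) ↔ ∃ σ : Equiv.Perm (Fin n), H.map σ.toEmbedding ≤ gr W := by
  constructor
  · rintro ⟨T, hT, hTW⟩
    obtain ⟨σ, rfl⟩ := mem_fam.1 hT
    exact ⟨σ, (ed_subset_iff hW _).1 hTW⟩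
  · rintro ⟨σ, hσ⟩
    exact ⟨ed (pm σ H), mem_fam.2 ⟨σ, rfl⟩, (ed_subset_iff hW _).2 hσ⟩

/-- The probability of containing a copy of `H` as an expectation over random edge sets. -/
lemma probContains_eq_ex (H : SimpleGraph (Fin n)) (p : ℝ) :
    probContains H p =
      ex (ground n) p (fun W => if ∃ T ∈ fam H, T ⊆ W then (1 : ℝ) else 0) := by
  unfold probContains ex
  symm
  apply Finset.sum_nbij' (i := gr) (j := ed)
  · intro W _
    exact Finset.mem_univ _
  · intro G _
    exact Finset.mem_powerset.2 (ed_subset_ground G)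
  · intro W hW
    exact ed_gr (Finset.mem_powerset.1 hW)
  · intro G _
    exact gr_ed G
  · intro W hW
    have hW' := Finset.mem_powerset.1 hW
    have hc : (gr W).edgeSet.ncard = W.card := by rw [← card_ed, ed_gr hW']
    rw [hc, wt_eq_pow _ _ hW', card_ground]
    beta_reduce
    by_cases h : ∃ T ∈ fam H, T ⊆ W
    · rw [if_pos h, if_pos ((exists_fam_subset_iff H hW').1 h), mul_one]
    · rw [if_neg h, if_neg (fun h' => h ((exists_fam_subset_iff H hW').2 h')), mul_zero]

lemma probContains_add_failP (H : SimpleGraph (Fin n)) (p : ℝ) :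
    probContains H p + failP (ground n) p (fam H) = 1 := by
  rw [probContains_eq_ex]
  unfold failP
  rw [← ex_add]
  have : (fun W : Finset (Sym2 (Fin n)) => (if ∃ T ∈ fam H, T ⊆ W then (1 : ℝ) else 0) +
      (if ∃ T ∈ fam H, T ⊆ W then (0 : ℝ) else 1)) = fun _ => 1 := by
    funext W
    split_ifs <;> norm_num
  rw [this, ex_const]

lemma probContains_one (H : SimpleGraph (Fin n)) : probContains H 1 = 1 := by
  rw [probContains_eq_ex, ex_one]
  rw [if_pos ⟨ed (pm 1 H), mem_fam.2 ⟨1, rfl⟩, ed_subset_ground _⟩]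

lemma probContains_zero_of_no_edges (H : SimpleGraph (Fin n)) (h : H.edgeSet.ncard = 0) :
    probContains H 0 = 1 := by
  rw [probContains_eq_ex, ex_zero]
  have h0 : ed (pm 1 H) = ∅ := by
    rw [← Finset.card_eq_zero, card_ed, pm_edge_ncard, h]
  rw [if_pos ⟨ed (pm 1 H), mem_fam.2 ⟨1, rfl⟩, by rw [h0]⟩]

/-- Relabelling: a bound on the number of permutations mapping `F` into `H` that holds for all
subgraphs `F` of `H` holds for all graphs `F`. -/
lemma permCount_le_all (H : SimpleGraph (Fin n)) (x C : ℝ) (hx0 : 0 ≤ x) (hC : 0 ≤ C)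
    (hx : ∀ F : SimpleGraph (Fin n), F ≤ H →
      (permCount H F : ℝ) ≤ C * (n.factorial : ℝ) * x ^ F.edgeSet.ncard)
    (F : SimpleGraph (Fin n)) :
    (permCount H F : ℝ) ≤ C * (n.factorial : ℝ) * x ^ F.edgeSet.ncard := by
  by_cases h : ∃ τ : Equiv.Perm (Fin n), pm τ F ≤ H
  · obtain ⟨τ, hτ⟩ := h
    have e1 : permCount H F = permCount H (pm τ F) := by
      unfold permCount
      refine Nat.card_congr
        { toFun := fun σ => ⟨σ.1 * τ⁻¹, by rw [pm_mul, pm_inv_cancel]; exact σ.2⟩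
          invFun := fun σ => ⟨σ.1 * τ, by rw [pm_mul]; exact σ.2⟩
          left_inv := fun σ => by apply Subtype.ext; simp
          right_inv := fun σ => by apply Subtype.ext; simp }
    rw [e1, ← pm_edge_ncard τ F]
    exact hx _ hτ
  · have h0 : permCount H F = 0 := by
      unfold permCount
      have : IsEmpty {σ : Equiv.Perm (Fin n) // pm σ F ≤ H} := ⟨fun σ => h ⟨σ.1, σ.2⟩⟩
      exact Nat.card_of_isEmpty
    rw [h0, Nat.cast_zero]
    exact mul_nonneg (mul_nonneg hC (Nat.cast_nonneg _)) (pow_nonneg hx0 _)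

/-- Every cover of the family of copies of `H` is expensive. -/
lemma cover_cost (H : SimpleGraph (Fin n)) (x C : ℝ) (hx0 : 0 ≤ x) (hC : 0 < C)
    (hx : ∀ F : SimpleGraph (Fin n), F ≤ H →
      (permCount H F : ℝ) ≤ C * (n.factorial : ℝ) * x ^ F.edgeSet.ncard)
    (G : Finset (Finset (Sym2 (Fin n)))) (hGs : ∀ S ∈ G, S ⊆ ground n)
    (hG : ∀ T ∈ fam H, ∃ S ∈ G, S ⊆ T) : 1 / C ≤ ∑ S ∈ G, x ^ S.card := by
  have hall := permCount_le_all H x C hx0 hC.le hx
  have h1 : (n.factorial : ℝ) ≤ ∑ σ : Equiv.Perm (Fin n), ∑ S ∈ G,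
      (if S ⊆ ed (pm σ H) then (1 : ℝ) else 0) := by
    have hfac : (n.factorial : ℝ) = ∑ σ : Equiv.Perm (Fin n), (1 : ℝ) := by
      rw [Finset.sum_const, Finset.card_univ, Fintype.card_perm, Fintype.card_fin]
      simp
    rw [hfac]
    apply Finset.sum_le_sum
    intro σ _
    obtain ⟨S, hS, hST⟩ := hG (ed (pm σ H)) (mem_fam.2 ⟨σ, rfl⟩)
    calc (1 : ℝ) = if S ⊆ ed (pm σ H) then (1 : ℝ) else 0 := by rw [if_pos hST]
      _ ≤ ∑ S ∈ G, (if S ⊆ ed (pm σ H) then (1 : ℝ) else 0) :=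
          Finset.single_le_sum (f := fun S => if S ⊆ ed (pm σ H) then (1 : ℝ) else 0)
            (fun S _ => by split_ifs <;> norm_num) hS
  rw [Finset.sum_comm] at h1
  have h2 : ∀ S ∈ G, ∑ σ : Equiv.Perm (Fin n), (if S ⊆ ed (pm σ H) then (1 : ℝ) else 0) ≤
      C * (n.factorial : ℝ) * x ^ S.card := by
    intro S hS
    have hSg := hGs S hS
    have e1 : ∀ σ : Equiv.Perm (Fin n), (S ⊆ ed (pm σ H)) ↔ pm σ⁻¹ (gr S) ≤ H := by
      intro σ
      rw [subset_ed_iff hSg]
      constructor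
      · intro h
        have := pm_mono σ⁻¹ h
        rwa [pm_inv_cancel] at this
      · intro h
        have := pm_mono σ h
        rwa [pm_cancel_inv] at this
    have e2 : ∑ σ : Equiv.Perm (Fin n), (if S ⊆ ed (pm σ H) then (1 : ℝ) else 0) =
        ∑ σ : Equiv.Perm (Fin n), (if pm σ (gr S) ≤ H then (1 : ℝ) else 0) := by
      rw [← Equiv.sum_comp (Equiv.inv (Equiv.Perm (Fin n)))
        (fun σ => if pm σ (gr S) ≤ H then (1 : ℝ) else 0)]
      apply Finset.sum_congr rfl
      intro σ _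
      simp only [Equiv.inv_apply]
      by_cases h : S ⊆ ed (pm σ H)
      · rw [if_pos h, if_pos ((e1 σ).1 h)]
      · rw [if_neg h, if_neg (fun h' => h ((e1 σ).2 h'))]
    have e3 : ∑ σ : Equiv.Perm (Fin n), (if pm σ (gr S) ≤ H then (1 : ℝ) else 0) =
        (permCount H (gr S) : ℝ) := by
      unfold permCount
      rw [Nat.card_eq_fintype_card, Fintype.card_subtype, Finset.sum_boole]
    have hc : (gr S).edgeSet.ncard = S.card := by rw [← card_ed, ed_gr hSg]
    rw [e2, e3, ← hc]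
    exact hall (gr S)
  have h3 : (n.factorial : ℝ) ≤ ∑ S ∈ G, C * (n.factorial : ℝ) * x ^ S.card :=
    h1.trans (Finset.sum_le_sum h2)
  rw [← Finset.mul_sum] at h3
  have hfac : (0 : ℝ) < n.factorial := by exact_mod_cast Nat.factorial_pos n
  rw [div_le_iff₀ hC]
  have h4 : (n.factorial : ℝ) * 1 ≤ (n.factorial : ℝ) * ((∑ S ∈ G, x ^ S.card) * C) := by
    linarith
  exact le_of_mul_le_mul_left h4 hfac

/-- If `N(H,F) ≤ 2 N(K_n,F) x^{e(F)}` for all `F ≤ H`, `64 x ≤ 1` and `e(H) < 2^r`, then the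
random graph of density `1 - (1 - 64 x)^r` contains a copy of `H` with probability at least
`1/2`. -/
theorem probContains_ge (H : SimpleGraph (Fin n)) (x : ℝ) (hx0 : 0 ≤ x) (hx1 : 64 * x ≤ 1)
    (hcount : ∀ F : SimpleGraph (Fin n), F ≤ H → (subCount H F : ℝ) / 2 ≤ expCount x F)
    (r : ℕ) (hr : H.edgeSet.ncard < 2 ^ r) :
    1 / 2 ≤ probContains H (1 - (1 - 64 * x) ^ r) := by
  have hperm : ∀ F : SimpleGraph (Fin n), F ≤ H →
      (permCount H F : ℝ) ≤ 2 * (n.factorial : ℝ) * x ^ F.edgeSet.ncard := by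
    intro F hF
    have h := hcount F hF
    unfold expCount at h
    have h' : (subCount H F : ℝ) ≤
        (subCount (⊤ : SimpleGraph (Fin n)) F : ℝ) * (2 * x ^ F.edgeSet.ncard) := by linarith
    have := permCount_le_of_subCount_le H F _ h'
    linarith
  have hfail := failP_le (ground n) x hx0 hx1 r H.edgeSet.ncard hr (fam H)
    (fam_subset_ground H) (fam_card H) (1 / 2) (by norm_num)
    (fun G hGs hG => cover_cost H x 2 hx0 (by norm_num) hperm G hGs hG)
  have hsum := probContains_add_failP H (1 - (1 - 64 * x) ^ r)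
  norm_num at hfail
  linarith

lemma pC_le_of_mem (H : SimpleGraph (Fin n)) {p : ℝ} (h0 : 0 ≤ p) (h1 : p ≤ 1)
    (h : 1 / 2 ≤ probContains H p) : pC H ≤ p :=
  csInf_le ⟨0, fun _ hp => hp.1⟩ ⟨h0, h1, h⟩

lemma pC_nonneg (H : SimpleGraph (Fin n)) : 0 ≤ pC H :=
  Real.sInf_nonneg (fun _ hp => hp.1)

lemma pTildeE_nonneg (H : SimpleGraph (Fin n)) : 0 ≤ pTildeE H :=
  Real.sInf_nonneg (fun _ hp => hp.1)

/-- `p_c ≤ 64 r p̃_E` where `r` is the number of binary digits of `e(H)`. -/
theorem pC_le_size (H : SimpleGraph (Fin n)) :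
    pC H ≤ 64 * (Nat.size H.edgeSet.ncard : ℝ) * pTildeE H := by
  set ℓ := H.edgeSet.ncard with hℓ
  set r := Nat.size ℓ with hr
  have hlt : ℓ < 2 ^ r := Nat.lt_size_self ℓ
  rcases Nat.eq_zero_or_pos ℓ with h0 | hpos
  · have h1 : pC H ≤ 0 := pC_le_of_mem H le_rfl (by norm_num)
      (by rw [probContains_zero_of_no_edges H h0]; norm_num)
    have h2 : 0 ≤ 64 * (r : ℝ) * pTildeE H := by
      have := pTildeE_nonneg H
      positivity
    linarith
  · have hr1 : 1 ≤ r := Nat.size_pos.2 hpos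
    have hr1' : (1 : ℝ) ≤ r := by exact_mod_cast hr1
    set B : Set ℝ := {p : ℝ | 0 ≤ p ∧ p ≤ 1 ∧
      ∀ F : SimpleGraph (Fin n), F ≤ H → (subCount H F : ℝ) / 2 ≤ expCount p F} with hB
    have hpT : pTildeE H = sInf B := rfl
    have hBne : B.Nonempty := by
      refine ⟨1, by norm_num, le_rfl, fun F _ => ?_⟩
      unfold expCount
      have h0 : (0 : ℝ) ≤ (subCount H F : ℝ) := Nat.cast_nonneg _
      have h2 : (subCount H F : ℝ) ≤ (subCount (⊤ : SimpleGraph (Fin n)) F : ℝ) := by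
        exact_mod_cast subCount_le_top H F
      simp only [one_pow, mul_one]
      linarith
    have key : ∀ p ∈ B, pC H ≤ 64 * (r : ℝ) * p := by
      rintro p ⟨hp0, hp1, hcount⟩
      by_cases hbig : 64 * p ≤ 1
      · have hq := probContains_ge H p hp0 hbig hcount r hlt
        have hpow0 : 0 ≤ (1 - 64 * p) ^ r := pow_nonneg (by linarith) r
        have hpow1 : (1 - 64 * p) ^ r ≤ 1 := pow_le_one₀ (by linarith) (by linarith)
        have hbern : 1 + (r : ℝ) * (-(64 * p)) ≤ (1 + -(64 * p)) ^ r :=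
          one_add_mul_le_pow (by linarith) r
        have h3 := pC_le_of_mem H (by linarith) (by linarith) hq
        have h4 : (1 + -(64 * p)) = 1 - 64 * p := by ring
        rw [h4] at hbern
        linarith
      · have h3 := pC_le_of_mem H (by norm_num) le_rfl
          (by rw [probContains_one]; norm_num)
        have h4 : 1 < 64 * p := not_le.1 hbig
        nlinarith
    have hfin : pC H / (64 * (r : ℝ)) ≤ pTildeE H := by
      rw [hpT]
      apply le_csInf hBne
      intro p hp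
      rw [div_le_iff₀ (by positivity)]
      have := key p hp
      linarith
    rw [div_le_iff₀ (by positivity)] at hfin
    linarith

lemma size_edges_le (hn : 2 ≤ n) (H : SimpleGraph (Fin n)) :
    (Nat.size H.edgeSet.ncard : ℝ) * Real.log 2 ≤ 2 * Real.log n := by
  have hlogn : 0 ≤ Real.log n := Real.log_nonneg (by exact_mod_cast (by omega : 1 ≤ n))
  set ℓ := H.edgeSet.ncard with hℓ
  rcases Nat.eq_zero_or_pos ℓ with h0 | hpos
  · rw [h0, Nat.size_zero]
    simp only [Nat.cast_zero, zero_mul]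
    positivity
  · have hsz : 0 < Nat.size ℓ := Nat.size_pos.2 hpos
    have h1 : 2 ^ (Nat.size ℓ - 1) ≤ ℓ := Nat.lt_size.1 (by omega)
    have h2 : ℓ ≤ n.choose 2 := by
      rw [hℓ, ← card_ed, ← card_ground]
      exact Finset.card_le_card (ed_subset_ground H)
    have h3 : 2 * n.choose 2 ≤ n ^ 2 := by
      rw [Nat.choose_two_right]
      have ha : n * (n - 1) / 2 * 2 ≤ n * (n - 1) := Nat.div_mul_le_self _ _
      have hb : n * (n - 1) ≤ n * n := Nat.mul_le_mul_left _ (Nat.sub_le _ _)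
      rw [pow_two]
      omega
    have h4 : 2 ^ Nat.size ℓ ≤ n ^ 2 := by
      have h5 : 2 ^ Nat.size ℓ = 2 * 2 ^ (Nat.size ℓ - 1) := by
        rw [← pow_succ']
        congr 1
        omega
      omega
    have h5 : ((2 : ℝ) ^ Nat.size ℓ) ≤ (n : ℝ) ^ 2 := by exact_mod_cast h4
    have h6 := Real.log_le_log (by positivity) h5
    rw [Real.log_pow, Real.log_pow] at h6
    push_cast at h6
    linarith

/-- **From `p̃_E` to `p_c`** (the bound of Mossel–Niles-Weed–Sun–Zadik, via the Park–Pham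
argument): `p_c(n,H) ≤ 185 p̃_E(n,H) log n` for `n ≥ 2`. -/
theorem pC_le_pTildeE_log (hn : 2 ≤ n) (H : SimpleGraph (Fin n)) :
    pC H ≤ 185 * pTildeE H * Real.log n := by
  have h1 := pC_le_size H
  have h2 := size_edges_le hn H
  have hlog2 := Real.log_two_gt_d9
  have hT := pTildeE_nonneg H
  have hlogn : 0 ≤ Real.log n := Real.log_nonneg (by exact_mod_cast (by omega : 1 ≤ n))
  have hs : (0 : ℝ) ≤ Nat.size H.edgeSet.ncard := Nat.cast_nonneg _
  have h3 : (Nat.size H.edgeSet.ncard : ℝ) ≤ 185 / 64 * Real.log n := by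
    nlinarith
  calc pC H ≤ 64 * (Nat.size H.edgeSet.ncard : ℝ) * pTildeE H := h1
    _ ≤ 64 * (185 / 64 * Real.log n) * pTildeE H := by
        apply mul_le_mul_of_nonneg_right _ hT
        linarith
    _ = 185 * pTildeE H * Real.log n := by ring

end Vale.Agent.H17.KK
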