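import Mathlib

/-!
Definitions for problem P064 (second Kahn–Kalai conjecture): the probability that the binomial
random graph `G(n,p)` contains a copy of `H`, and the threshold `p_c(n,H)` (with the conventions
of the problem file).  All graphs live on the vertex set `Fin n`; a graph with fewer than `n`
vertices is regarded as a graph on `Fin n` with extra isolated vertices.
-/

namespace Vale.Agent.H17.KK

variable {n : ℕ}

open Classical in
/-- `probContains H p = Pr(N(G(n,p), H) > 0)`: the probability that the binomial random graph
`G(n,p)` on the vertex set `Fin n` contains a copy of `H`.  It is the sum, over all graphs `G` on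
`Fin n` that contain the image of `H` under some permutation of the vertex set, of the probability
`p ^ e(G) * (1 - p) ^ (C(n,2) - e(G))` that `G(n,p)` equals `G`. -/
noncomputable def probContains (H : SimpleGraph (Fin n)) (p : ℝ) : ℝ :=
  ∑ G : SimpleGraph (Fin n),
    if (∃ σ : Equiv.Perm (Fin n), H.map σ.toEmbedding ≤ G) then
      p ^ G.edgeSet.ncard * (1 - p) ^ (n.choose 2 - G.edgeSet.ncard)
    else 0

/-- The threshold `p_c(n, H)` of the problem file: the least `p ∈ [0,1]` such that
`Pr(N(G(n,p), H) > 0) ≥ 1/2`. -/
noncomputable def pC (H : SimpleGraph (Fin n)) : ℝ :=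
  sInf {p : ℝ | 0 ≤ p ∧ p ≤ 1 ∧ 1 / 2 ≤ probContains H p}

end Vale.Agent.H17.KK
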